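import Vale.Agent.P007.Finite

open MeasureTheory Filter Topology Module NumberField
open scoped nonZeroDivisors

namespace Vale.Agent.P007

variable {n : ℕ}

theorem finite_between {V : Type*} [AddCommGroup V] (E : Submodule ℤ V)
    [Module.Finite ℤ E] (m : ℤ) (hm : m ≠ 0) :
    {M : Submodule ℤ V | (∀ y ∈ E, m • y ∈ M) ∧ M ≤ E}.Finite := by
  let N : Submodule ℤ E := LinearMap.range (m • (LinearMap.id : E →ₗ[ℤ] E))
  have htors : Module.IsTorsion ℤ (E ⧸ N) := by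
    intro x
    induction x using Submodule.Quotient.induction_on with
    | _ x =>
      refine ⟨⟨m, mem_nonZeroDivisors_of_ne_zero hm⟩, ?_⟩
      change m • (Submodule.Quotient.mk x : E ⧸ N) = 0
      rw [← Submodule.Quotient.mk_smul, Submodule.Quotient.mk_eq_zero]
      exact ⟨x, rfl⟩
  have hfin : Finite (E ⧸ N) := Module.finite_of_fg_torsion _ htors
  have hfin' : Finite (Submodule ℤ (E ⧸ N)) :=
    Finite.of_injective (fun S => (S : Set (E ⧸ N))) SetLike.coe_injective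
  refine Set.Finite.of_finite_image (f := fun M => (M.comap E.subtype).map N.mkQ)
    (Set.toFinite _) ?_
  have key : ∀ M₁ M₂ : Submodule ℤ V, ((∀ y ∈ E, m • y ∈ M₁) ∧ M₁ ≤ E) →
      ((∀ y ∈ E, m • y ∈ M₂) ∧ M₂ ≤ E) →
      (M₁.comap E.subtype).map N.mkQ = (M₂.comap E.subtype).map N.mkQ → M₁ ≤ M₂ := by
    intro M₁ M₂ h1 h2 h z hz
    have hzE : z ∈ E := h1.2 hz
    have h3 : N.mkQ ⟨z, hzE⟩ ∈ (M₁.comap E.subtype).map N.mkQ := ⟨⟨z, hzE⟩, hz, rfl⟩
    rw [h] at h3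
    obtain ⟨⟨z₂, hz₂E⟩, hz₂, hz₂'⟩ := h3
    have h4 := (Submodule.Quotient.eq N).1 hz₂'
    obtain ⟨y, hy⟩ := h4
    have h5 : m • (y : V) = z₂ - z := congrArg Subtype.val hy
    have h6 : z = z₂ - m • (y : V) := by rw [h5]; abel
    rw [h6]
    exact M₂.sub_mem hz₂ (h2.1 y y.2)
  intro M₁ h1 M₂ h2 h
  exact le_antisymm (key M₁ M₂ h1 h2 h) (key M₂ M₁ h2 h1 h.symm)

namespace Datum

variable (D : Datum n)

/-- the `𝓞_K`-module generated by `I` -/
noncomputable def extMod (I : D.FI) :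
    Submodule (𝓞 D.K) D.K :=
  Submodule.span (𝓞 D.K) (D.zmod I : Set D.K)

theorem extMod_fg (I : D.FI) : (D.extMod I).FG := by
  classical
  obtain ⟨b, hb⟩ := D.exists_basis I
  refine ⟨Finset.univ.image b, ?_⟩
  rw [Finset.coe_image, Finset.coe_univ, Set.image_univ, extMod, hb]
  apply le_antisymm
  · exact Submodule.span_mono Submodule.subset_span
  · rw [Submodule.span_le]
    exact Submodule.span_subset_span ℤ (𝓞 D.K) _

/-- the extension of `I` to the maximal order -/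
noncomputable def extIdeal (I : D.FI) :
    (FractionalIdeal (𝓞 D.K)⁰ D.K)ˣ :=
  Units.mk0 ⟨D.extMod I, FractionalIdeal.isFractional_of_fg (D.extMod_fg I)⟩ (by
    intro h
    obtain ⟨x, hx, hx0⟩ := D.exists_ne_zero I
    apply hx0
    have h1 : x ∈ D.extMod I := Submodule.subset_span hx
    have h2 := FractionalIdeal.eq_zero_iff.1 h
    exact h2 x h1)

theorem mem_extIdeal {I : D.FI} {z : D.K} :
    z ∈ (D.extIdeal I : FractionalIdeal (𝓞 D.K)⁰ D.K) ↔ z ∈ D.extMod I := Iff.rfl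

theorem mul_extMod_aux {m : ℤ} (hm : ∀ y : 𝓞 D.K, (m : D.K) * (y : D.K) ∈ D.O)
    {I : D.FI} {z : D.K} (hz : z ∈ D.extMod I) :
    ∀ r : 𝓞 D.K, (m : D.K) * ((r : D.K) * z) ∈ D.zmod I := by
  unfold extMod at hz
  induction hz using Submodule.span_induction with
  | mem z hz => intro r; rw [← mul_assoc]; exact D.zmod_smul (hm r) hz
  | zero => intro r; rw [mul_zero, mul_zero]; exact Submodule.zero_mem _
  | add a b _ _ ha hb =>
    intro r
    rw [mul_add, mul_add]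
    exact Submodule.add_mem _ (ha r) (hb r)
  | smul q a _ ha =>
    intro r
    have h1 : (r : D.K) * (q • a) = ((r * q : 𝓞 D.K) : D.K) * a := by
      rw [Algebra.smul_def]
      change algebraMap (𝓞 D.K) D.K r * (algebraMap (𝓞 D.K) D.K q * a) =
        algebraMap (𝓞 D.K) D.K (r * q) * a
      rw [map_mul, mul_assoc]
    rw [h1]
    exact ha (r * q)

theorem mul_extMod {m : ℤ} (hm : ∀ y : 𝓞 D.K, (m : D.K) * (y : D.K) ∈ D.O)
    {I : D.FI} {z : D.K} (hz : z ∈ D.extMod I) :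
    (m : D.K) * z ∈ D.zmod I := by
  have := D.mul_extMod_aux hm hz 1
  have h1 : ((1 : 𝓞 D.K) : D.K) = 1 := map_one (algebraMap (𝓞 D.K) D.K)
  rwa [h1, one_mul] at this

theorem exists_smul_of_class_eq {I I' : D.FI}
    (h : ClassGroup.mk D.K (D.extIdeal I) = ClassGroup.mk D.K (D.extIdeal I')) :
    ∃ α : D.K, α ≠ 0 ∧ ∀ z, α * z ∈ D.extMod I ↔ z ∈ D.extMod I' := by
  have h1 : ClassGroup.mk D.K (D.extIdeal I * (D.extIdeal I')⁻¹) = 1 := by
    rw [map_mul, map_inv, h, mul_inv_cancel]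
  rw [ClassGroup.mk_eq_one_iff] at h1
  obtain ⟨⟨α, hα⟩⟩ := h1
  have h2 : ((D.extIdeal I * (D.extIdeal I')⁻¹ : (FractionalIdeal (𝓞 D.K)⁰ D.K)ˣ) :
      FractionalIdeal (𝓞 D.K)⁰ D.K) = FractionalIdeal.spanSingleton (𝓞 D.K)⁰ α := by
    apply FractionalIdeal.coeToSubmodule_injective
    exact hα.trans (FractionalIdeal.coe_spanSingleton _ α).symm
  have h3 : (D.extIdeal I : FractionalIdeal (𝓞 D.K)⁰ D.K) =
      FractionalIdeal.spanSingleton (𝓞 D.K)⁰ α * (D.extIdeal I') := by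
    rw [← h2, Units.val_mul, mul_assoc, Units.inv_mul, mul_one]
  have hα0 : α ≠ 0 := by
    rintro rfl
    rw [FractionalIdeal.spanSingleton_zero, zero_mul] at h3
    exact (D.extIdeal I).ne_zero h3
  refine ⟨α, hα0, fun z => ?_⟩
  rw [← D.mem_extIdeal, ← D.mem_extIdeal, h3, FractionalIdeal.mem_singleton_mul]
  constructor
  · rintro ⟨y, hy, hyz⟩
    rwa [mul_left_cancel₀ hα0 hyz]
  · intro hz
    exact ⟨z, hz, rfl⟩

theorem isFractionalIdeal_O : IsFractionalIdeal D.O D.O.toAddSubgroup := by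
  refine ⟨?_, fun a ha x hx => D.O.mul_mem ha hx, 1, D.O.one_mem, one_ne_zero, fun x hx => by
    rw [one_mul]; exact hx⟩
  intro h
  have h1 : (1 : D.K) ∈ D.O.toAddSubgroup := D.O.one_mem
  rw [h, AddSubgroup.mem_bot] at h1
  exact one_ne_zero h1

theorem isInvertibleIdeal_O : IsInvertibleIdeal D.O D.O.toAddSubgroup := by
  refine ⟨D.isFractionalIdeal_O, D.O.toAddSubgroup, D.isFractionalIdeal_O, ?_⟩
  apply le_antisymm
  · rw [AddSubgroup.closure_le]
    rintro _ ⟨x, hx, y, hy, rfl⟩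
    exact D.O.mul_mem hx hy
  · intro x hx
    exact AddSubgroup.subset_closure ⟨x, hx, 1, D.O.one_mem, mul_one x⟩

/-- Up to proportionality there are only finitely many invertible ideals. -/
theorem finite_classes : ∃ T : Set D.FI, T.Finite ∧
    ∀ I, ∃ I' ∈ T, ∃ β : D.K, β ≠ 0 ∧ ∀ z, β * z ∈ D.zmod I ↔ z ∈ D.zmod I' := by
  classical
  obtain ⟨m, hm0, hm⟩ := D.exists_conductor
  let cl : D.FI → ClassGroup (𝓞 D.K) :=
    fun I => ClassGroup.mk D.K (D.extIdeal I)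
  let ρ : ClassGroup (𝓞 D.K) → D.FI :=
    fun c => if h : ∃ I, cl I = c then h.choose else ⟨_, D.isFractionalIdeal_O⟩
  have hρ : ∀ I, cl (ρ (cl I)) = cl I := by
    intro I
    have h : ∃ I', cl I' = cl I := ⟨I, rfl⟩
    simp only [ρ, dif_pos h]
    exact h.choose_spec
  have hα : ∀ I, ∃ α : D.K, α ≠ 0 ∧ ∀ z, α * z ∈ D.extMod I ↔ z ∈ D.extMod (ρ (cl I)) :=
    fun I => D.exists_smul_of_class_eq (hρ I).symm
  choose α hα0 hα using hα
  let Θ : D.FI → Submodule ℤ D.K :=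
    fun I => (D.zmod I).comap (LinearMap.mulLeft ℤ (α I))
  have hΘmem : ∀ I z, z ∈ Θ I ↔ α I * z ∈ D.zmod I := fun I z => Iff.rfl
  have hΘfin : (Set.range Θ).Finite := by
    have h1 : Set.range Θ ⊆ ⋃ c : ClassGroup (𝓞 D.K), {M : Submodule ℤ D.K |
        (∀ y ∈ (D.extMod (ρ c)).restrictScalars ℤ, m • y ∈ M) ∧
          M ≤ (D.extMod (ρ c)).restrictScalars ℤ} := by
      rintro _ ⟨I, rfl⟩
      refine Set.mem_iUnion.2 ⟨cl I, fun y hy => ?_, fun z hz => ?_⟩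
      · rw [hΘmem, zsmul_eq_mul, ← mul_assoc, mul_comm (α I), mul_assoc]
        exact D.mul_extMod hm ((hα I y).2 hy)
      · exact (hα I z).1 (Submodule.subset_span ((hΘmem I z).1 hz))
    refine Set.Finite.subset (Set.finite_iUnion fun c => ?_) h1
    have h2 : Module.Finite (𝓞 D.K) (D.extMod (ρ c)) := Module.Finite.iff_fg.2 (D.extMod_fg _)
    have h3 : Module.Finite ℤ ((D.extMod (ρ c)).restrictScalars ℤ) :=
      Module.Finite.trans (R := ℤ) (𝓞 D.K) (D.extMod (ρ c))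
    exact finite_between _ m hm0
  -- representatives
  obtain ⟨T, hT, hT'⟩ : ∃ T : Set D.FI, T.Finite ∧
      ∀ I, ∃ I' ∈ T, Θ I' = Θ I := by
    have h4 : ∀ M : Set.range Θ, ∃ I, Θ I = M := fun M => M.2
    choose r hr using h4
    have := hΘfin.to_subtype
    exact ⟨Set.range r, Set.finite_range r, fun I => ⟨r ⟨Θ I, I, rfl⟩, ⟨_, rfl⟩, hr _⟩⟩
  refine ⟨T, hT, fun I => ?_⟩
  obtain ⟨I', hI'T, hI'⟩ := hT' I
  refine ⟨I', hI'T, α I * (α I')⁻¹, mul_ne_zero (hα0 I) (inv_ne_zero (hα0 I')), fun z => ?_⟩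
  rw [mul_assoc, ← hΘmem, ← hI', hΘmem, mul_inv_cancel_left₀ (hα0 I')]

theorem packet_finite : D.packet.Finite := by
  obtain ⟨T, hT, hT'⟩ := D.finite_classes
  have hW : {w : Fin n → ℝ | ∀ j, w j = 1 ∨ w j = -1}.Finite := by
    refine (Set.Finite.pi' fun _ : Fin n => (Set.toFinite ({1, -1} : Set ℝ))).subset ?_
    intro w hw j
    exact hw j
  have h1 : D.packet ⊆ ⋃ I ∈ T, ⋃ w ∈ {w : Fin n → ℝ | ∀ j, w j = 1 ∨ w j = -1},
      {Q | ∃ x, IsPointOf (D.latticeSet I w) x ∧ Q = orbitA x} := by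
    rintro Q ⟨I, w, x, hI, hw, hx, rfl⟩
    obtain ⟨I', hI'T, β, hβ, h⟩ := hT' ⟨I, hI.1⟩
    obtain ⟨w', x', hw', hx', hxx'⟩ := D.orbit_eq_of_smul hβ h hw hx
    simp only [Set.mem_iUnion]
    exact ⟨I', hI'T, w', hw', x', hx', hxx'⟩
  refine Set.Finite.subset (hT.biUnion fun I _ => hW.biUnion fun w _ => ?_) h1
  apply Set.Subsingleton.finite
  rintro _ ⟨x, hx, rfl⟩ _ ⟨y, hy, rfl⟩
  rw [isPointOf_unique hx hy]

theorem packet_nonempty : D.packet.Nonempty := by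
  obtain ⟨x, hx⟩ := D.exists_isPointOf ⟨_, D.isFractionalIdeal_O⟩ (w := fun _ => 1)
    (fun _ => Or.inl rfl)
  exact ⟨orbitA x, _, fun _ => 1, x, D.isInvertibleIdeal_O, fun _ => Or.inl rfl, hx, rfl⟩

theorem orbit_facts {Q : Set (X n)} (hQ : Q ∈ D.packet) :
    0 < orbitVol Q ∧ IsOrbitMeasure Q (orbitMeasure Q) := by
  obtain ⟨I, w, x, hI, hw, hx, rfl⟩ := hQ
  have h1 := discrete_periods x
  have h2 := D.isZLattice_periods (I := ⟨I, hI.1⟩) hx
  refine ⟨ZLattice.covolume_pos _ _, ?_⟩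
  have h3 := exists_orbitMeasure x
  unfold orbitMeasure
  rw [dif_pos h3]
  exact h3.choose_spec

/-- The packet measure is a probability measure. -/
theorem isProbabilityMeasure_packetMeasure : IsProbabilityMeasure D.packetMeasure := by
  have hfin := D.packet_finite
  have h0 : (∑ᶠ Q ∈ D.packet, ENNReal.ofReal (orbitVol Q)) ≠ 0 := by
    rw [finsum_mem_eq_finite_toFinset_sum _ hfin]
    obtain ⟨Q, hQ⟩ := D.packet_nonempty
    have h1 : 0 < ENNReal.ofReal (orbitVol Q) := ENNReal.ofReal_pos.2 (D.orbit_facts hQ).1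
    refine (lt_of_lt_of_le h1 ?_).ne'
    exact Finset.single_le_sum (f := fun Q => ENNReal.ofReal (orbitVol Q))
      (fun _ _ => zero_le) (hfin.mem_toFinset.2 hQ)
  have htop : (∑ᶠ Q ∈ D.packet, ENNReal.ofReal (orbitVol Q)) ≠ ⊤ := by
    rw [finsum_mem_eq_finite_toFinset_sum _ hfin]
    exact (ENNReal.sum_lt_top.2 fun _ _ => ENNReal.ofReal_lt_top).ne
  constructor
  unfold packetMeasure
  rw [Measure.smul_apply, smul_eq_mul]
  have h2 : (∑ᶠ Q ∈ D.packet, ENNReal.ofReal (orbitVol Q) • orbitMeasure Q) Set.univ =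
      ∑ᶠ Q ∈ D.packet, ENNReal.ofReal (orbitVol Q) := by
    rw [finsum_mem_eq_finite_toFinset_sum _ hfin, finsum_mem_eq_finite_toFinset_sum _ hfin,
      Measure.finsetSum_apply]
    refine Finset.sum_congr rfl fun Q hQ => ?_
    have := (D.orbit_facts (hfin.mem_toFinset.1 hQ)).2.1
    rw [Measure.smul_apply, measure_univ, smul_eq_mul, mul_one]
  rw [h2, ENNReal.inv_mul_cancel h0 htop]

end Datum

end Vale.Agent.P007
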