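import Mathlib

open MeasureTheory Filter Topology Module

namespace Vale.Agent.P007

noncomputable section

/-! ## The space of lattices -/

/-- The subgroup `SL_n(ℤ)` of `SL_n(ℝ)`. -/
def SLZ (n : ℕ) : Subgroup (Matrix.SpecialLinearGroup (Fin n) ℝ) :=
  (Matrix.SpecialLinearGroup.map (Int.castRingHom ℝ)).range

/-- `X n = SL_n(ℤ)\SL_n(ℝ)`, the set of orbits `SL_n(ℤ) g` of left multiplication. -/
def X (n : ℕ) : Type :=
  Quotient (MulAction.orbitRel (SLZ n) (Matrix.SpecialLinearGroup (Fin n) ℝ))

/-- The class `SL_n(ℤ) g`. -/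
def X.mk {n : ℕ} (g : Matrix.SpecialLinearGroup (Fin n) ℝ) : X n :=
  Quotient.mk (MulAction.orbitRel (SLZ n) (Matrix.SpecialLinearGroup (Fin n) ℝ)) g

/-- `X n` carries the quotient topology. -/
instance (n : ℕ) : TopologicalSpace (X n) := TopologicalSpace.coinduced X.mk inferInstance

/-- `X n` carries the Borel sigma-algebra. -/
instance (n : ℕ) : MeasurableSpace (X n) := borel (X n)

/-- The right action of `SL_n(ℝ)`: `X.right h (SL_n(ℤ) g) = SL_n(ℤ) g h`. -/
def X.right {n : ℕ} (h : Matrix.SpecialLinearGroup (Fin n) ℝ) : X n → X n :=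
  Quotient.map (fun g => g * h) (by
    rintro a b ⟨γ, rfl⟩
    exact ⟨γ, by simp only [Subgroup.smul_def, smul_eq_mul, mul_assoc]⟩)

/-- The lattice `ℤ^n g` of row vectors: the `ℤ`-span of the rows of `g`. -/
def rowLattice {n : ℕ} (g : Matrix.SpecialLinearGroup (Fin n) ℝ) :
    Submodule ℤ (Fin n → ℝ) :=
  Submodule.span ℤ (Set.range (g : Matrix (Fin n) (Fin n) ℝ).row)

/-- `x` is the point of `X n` that corresponds to the set `L` of row vectors, that is,
`x = SL_n(ℤ) g` with `L = ℤ^n g`. (Such an `x` exists only when `L` is a lattice of covolume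
one, and it is then unique.) -/
def IsPointOf {n : ℕ} (L : Set (Fin n → ℝ)) (x : X n) : Prop :=
  ∃ g : Matrix.SpecialLinearGroup (Fin n) ℝ, X.mk g = x ∧ (rowLattice g : Set (Fin n → ℝ)) = L

/-- The invariant probability measure `m_n`: a Borel probability measure on `X n` that is
invariant under right translation by every element of `SL_n(ℝ)` (it is unique). -/
def IsHaarProb {n : ℕ} (m : Measure (X n)) : Prop :=
  IsProbabilityMeasure m ∧
    ∀ h : Matrix.SpecialLinearGroup (Fin n) ℝ, m.map (X.right h) = m

/-! ## The diagonal group -/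

/-- For `u = (u_1, …, u_{n-1})`, the vector `(u_1, …, u_{n-1}, -(u_1 + ⋯ + u_{n-1}))`. -/
def ext {n : ℕ} (u : Fin (n - 1) → ℝ) (j : Fin n) : ℝ :=
  if h : (j : ℕ) < n - 1 then u ⟨j, h⟩ else -∑ i, u i

theorem sum_ext {n : ℕ} (u : Fin (n - 1) → ℝ) : ∑ j, ext u j = 0 := by
  cases n with
  | zero => simp
  | succ m =>
    rw [Fin.sum_univ_castSucc]
    have h1 : ∀ i : Fin m, ext (n := m + 1) u i.castSucc = u i := by
      intro i
      have : (i.castSucc : ℕ) < m + 1 - 1 := by simp
      simp only [ext, this, dif_pos]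
      rfl
    have h2 : ext (n := m + 1) u (Fin.last m) = -∑ i, u i := by
      simp [ext]
    rw [h2, Finset.sum_congr rfl fun i _ => h1 i]
    exact add_neg_cancel _

/-- The element `diag(e^{u_1}, …, e^{u_n})`, `u_n = -(u_1 + ⋯ + u_{n-1})`, of `A_n`. -/
def diagA {n : ℕ} (u : Fin (n - 1) → ℝ) : Matrix.SpecialLinearGroup (Fin n) ℝ :=
  ⟨Matrix.diagonal fun j => Real.exp (ext u j), by
    rw [Matrix.det_diagonal, ← Real.exp_sum, sum_ext, Real.exp_zero]⟩

/-- The orbit `x A_n`. -/
def orbitA {n : ℕ} (x : X n) : Set (X n) :=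
  Set.range fun u : Fin (n - 1) → ℝ => X.right (diagA u) x

/-- The group `{u : x a(u) = x for every x in Q}` of periods of an orbit `Q = y A_n`, a subgroup
of `ℝ^{n-1}` (the set is a group already, the span adds nothing). Since `A_n` is commutative,
`u` is a period as soon as `x a(u) = x` for one point `x` of the orbit. -/
def orbitPeriods {n : ℕ} (Q : Set (X n)) : Submodule ℤ (Fin (n - 1) → ℝ) :=
  Submodule.span ℤ {u | ∀ x ∈ Q, X.right (diagA u) x = x}

/-- The volume of a compact orbit `Q = y A_n ≅ A_n / periods` for the Haar measure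
`du_1 ⋯ du_{n-1}`: the covolume of the group of periods for Lebesgue measure. -/
def orbitVol {n : ℕ} (Q : Set (X n)) : ℝ :=
  ZLattice.covolume (orbitPeriods Q) volume

/-- `ν` is an `A_n`-invariant Borel probability measure carried by the orbit `Q`. For a compact
orbit there is exactly one. -/
def IsOrbitMeasure {n : ℕ} (Q : Set (X n)) (ν : Measure (X n)) : Prop :=
  IsProbabilityMeasure ν ∧ ν Qᶜ = 0 ∧
    ∀ u : Fin (n - 1) → ℝ, ν.map (X.right (diagA u)) = ν

open Classical in
/-- The invariant probability measure `ν_Q` of a compact orbit `Q`. -/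
def orbitMeasure {n : ℕ} (Q : Set (X n)) : Measure (X n) :=
  if h : ∃ ν, IsOrbitMeasure Q ν then h.choose else 0

/-! ## Orders in totally real fields, and their packets -/

/-- A fractional ideal of the subring `O` of `K`: a nonzero additive subgroup `I` of `K`, stable
under multiplication by `O`, with `d I ⊆ O` for some nonzero `d ∈ O`. -/
def IsFractionalIdeal {K : Type} [Field K] (O : Subring K) (I : AddSubgroup K) : Prop :=
  I ≠ ⊥ ∧ (∀ a ∈ O, ∀ x ∈ I, a * x ∈ I) ∧ ∃ d ∈ O, d ≠ 0 ∧ ∀ x ∈ I, d * x ∈ O

/-- An invertible fractional ideal: `I J = O` for some fractional ideal `J`, where `I J` is the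
additive group generated by the products. (Such an ideal is proper.) -/
def IsInvertibleIdeal {K : Type} [Field K] (O : Subring K) (I : AddSubgroup K) : Prop :=
  IsFractionalIdeal O I ∧ ∃ J : AddSubgroup K, IsFractionalIdeal O J ∧
    AddSubgroup.closure {z | ∃ x ∈ I, ∃ y ∈ J, x * y = z} = O.toAddSubgroup

/-- A datum `(K, σ, O)`: a number field `K` of degree `n` with an ordering
`σ = (σ_1, …, σ_n)` of its real embeddings (so that `K` is totally real, since it has `n` real
embeddings) and an order `O` of `K`, that is, a subring of the ring of integers which spans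
`K` over `ℚ`. -/
structure Datum (n : ℕ) where
  /-- the number field -/
  K : Type
  [field : Field K]
  [numberField : NumberField K]
  finrank_eq : Module.finrank ℚ K = n
  /-- the ordering of all the real embeddings -/
  σ : Fin n ≃ (K →+* ℝ)
  /-- the order -/
  O : Subring K
  integral : ∀ x ∈ O, IsIntegral ℤ x
  full : Submodule.span ℚ (O : Set K) = ⊤

attribute [instance] Datum.field Datum.numberField

namespace Datum

variable {n : ℕ} (D : Datum n)

/-- The ring of integers of `K`, as a subring of `K`. -/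
def maxOrder : Subring D.K := (integralClosure ℤ D.K).toSubring

/-- `|Disc O| = |Disc K| [O_K : O]^2`. -/
def absDisc : ℕ :=
  (NumberField.discr D.K).natAbs *
    (D.O.toAddSubgroup.relIndex D.maxOrder.toAddSubgroup) ^ 2

/-- The same field and the same order, with the real embeddings in another order. -/
def reorder (π : Equiv.Perm (Fin n)) : Datum n where
  K := D.K
  finrank_eq := D.finrank_eq
  σ := π.trans D.σ
  O := D.O
  integral := D.integral
  full := D.full

/-- The lattice `σ(I)` in `ℝ^n`, the set of the vectors `(σ_1(z), …, σ_n(z))`, `z ∈ I`. -/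
def idealLattice (I : AddSubgroup D.K) : Submodule ℤ (Fin n → ℝ) :=
  Submodule.span ℤ ((fun (z : D.K) (j : Fin n) => D.σ j z) '' I)

/-- The set `Λ_I w = covol(σ(I))^{-1/n} σ(I) w` for `w` a diagonal matrix `diag(w_1, …, w_n)`. -/
def latticeSet (I : AddSubgroup D.K) (w : Fin n → ℝ) : Set (Fin n → ℝ) :=
  (fun (v : Fin n → ℝ) (j : Fin n) =>
    (ZLattice.covolume (D.idealLattice I) volume) ^ (-(1 : ℝ) / n) * v j * w j) ''
      (D.idealLattice I)

/-- The packet: the set of the orbits `Λ_I w A_n`, where `I` runs over the invertible fractional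
`O`-ideals and `w` over the diagonal matrices with entries `±1`. Replacing `I` by `α I` permutes
the orbits `Λ_I w A_n`, so this is the same set of orbits as the one obtained from one
representative `I` of each class in `Pic(O)`. -/
def packet : Set (Set (X n)) :=
  {Q | ∃ (I : AddSubgroup D.K) (w : Fin n → ℝ) (x : X n), IsInvertibleIdeal D.O I ∧
    (∀ j, w j = 1 ∨ w j = -1) ∧ IsPointOf (D.latticeSet I w) x ∧ Q = orbitA x}

/-- The packet measure
`μ = (∑ vol(Q))⁻¹ ∑ vol(Q) ν_Q`, sums over the finite set of orbits `Q` in the packet. -/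
def packetMeasure : Measure (X n) :=
  (∑ᶠ Q ∈ D.packet, ENNReal.ofReal (orbitVol Q))⁻¹ •
    ∑ᶠ Q ∈ D.packet, ENNReal.ofReal (orbitVol Q) • orbitMeasure Q

end Datum

/-! ## Weak convergence -/

/-- Weak convergence of a sequence of measures on `X n`, as in the problem: convergence of the
integrals of all continuous compactly supported functions, and no escape of mass. -/
def ConvergesWeakly {n : ℕ} (μ : ℕ → Measure (X n)) (m : Measure (X n)) : Prop :=
  (∀ f : X n → ℝ, Continuous f → HasCompactSupport f →
    Tendsto (fun i => ∫ x, f x ∂(μ i)) atTop (𝓝 (∫ x, f x ∂m))) ∧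
  (∀ ε : ℝ, 0 < ε → ∃ C : Set (X n), IsCompact C ∧
    ∀ᶠ i in atTop, ENNReal.ofReal (1 - ε) ≤ μ i C)

end

end Vale.Agent.P007
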