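import Mathlib

open Module NumberField

namespace Vale.Agent.P007

/-- For a prime `q = 1 mod 2b`, the cyclotomic field `ℚ(ζ_q)` has a totally real subfield
of degree `b`, Galois over `ℚ`. -/
theorem exists_subfield (b q : ℕ) [hq : Fact q.Prime] (hmod : q ≡ 1 [MOD 2 * b])
    (C : Type) [Field C] [NumberField C] [IsCyclotomicExtension {q} ℚ C] :
    ∃ E : IntermediateField ℚ C, finrank ℚ E = b ∧ IsGalois ℚ E ∧
      IsTotallyReal E := by
  have hq0 : NeZero q := ⟨hq.out.ne_zero⟩
  have hgal : IsGalois ℚ C := IsCyclotomicExtension.isGalois {q} ℚ C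
  let e := IsCyclotomicExtension.Rat.galEquivZMod q C
  have hcard : Nat.card (ZMod q)ˣ = q - 1 := by
    rw [Nat.card_eq_fintype_card, ZMod.card_units q]
  have hdvd : 2 * b ∣ q - 1 := (Nat.modEq_iff_dvd' hq.out.one_le).1 hmod.symm
  set P : Subgroup (ZMod q)ˣ := (powMonoidHom b : (ZMod q)ˣ →* (ZMod q)ˣ).range with hP
  have hPidx : P.index = b := by
    rw [hP, IsCyclic.index_powMonoidHom_range, hcard]
    exact Nat.gcd_eq_right ((dvd_mul_left b 2).trans hdvd)
  set H : Subgroup Gal(C/ℚ) := P.comap e.toMonoidHom with hH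
  have hHidx : H.index = b := by
    rw [hH, Subgroup.index_comap_of_surjective (f := e.toMonoidHom) P e.surjective, hPidx]
  -- the elements of order at most two are in `P`
  have hinv : ∀ z : (ZMod q)ˣ, z * z = 1 → z ∈ P := by
    intro z hz
    obtain ⟨k, hk⟩ := hdvd
    obtain ⟨g, hg⟩ := IsCyclic.exists_generator (α := (ZMod q)ˣ)
    obtain ⟨j, rfl⟩ := (Subgroup.mem_zpowers_iff.1 (hg z))
    have hord : orderOf g = q - 1 := by
      rw [← hcard]
      exact orderOf_eq_card_of_forall_mem_zpowers hg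
    have h1 : g ^ (j + j) = 1 := by rw [zpow_add]; exact hz
    have h2 := orderOf_dvd_iff_zpow_eq_one.2 h1
    rw [hord, hk] at h2
    obtain ⟨l, hl⟩ := h2
    have h3 : j = b * (k * l) := by
      have : (2 : ℤ) * j = 2 * (b * (k * l)) := by
        rw [two_mul, hl]; push_cast; ring
      exact mul_left_cancel₀ two_ne_zero this
    refine ⟨g ^ ((k : ℤ) * l), ?_⟩
    rw [powMonoidHom_apply, h3, ← zpow_natCast, ← zpow_mul, mul_comm]
  refine ⟨IntermediateField.fixedField H, ?_, ?_, ?_⟩
  · have h1 := IntermediateField.finrank_fixedField_eq_card H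
    have h2 := finrank_mul_finrank ℚ (IntermediateField.fixedField H) C
    have h3 := IsGalois.card_aut_eq_finrank ℚ C
    have h4 := H.card_mul_index
    rw [h1, ← h3, ← h4, hHidx, mul_comm] at h2
    exact Nat.eq_of_mul_eq_mul_left Nat.card_pos h2
  · have : IsAbelianGalois ℚ C := IsCyclotomicExtension.isAbelianGalois {q} ℚ C
    have := IsAbelianGalois.tower_bot ℚ (IntermediateField.fixedField H) C
    infer_instance
  · -- totally real
    have h1 : (IntermediateField.fixedField H).toSubfield ≤ maximalRealSubfield C := by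
      intro x hx
      rw [mem_maximalRealSubfield_iff]
      intro φ
      obtain ⟨σ, hσ⟩ := ComplexEmbedding.exists_comp_symm_eq_of_comp_eq (k := ℚ) φ
        (ComplexEmbedding.conjugate φ) (Subsingleton.elim _ _)
      have h2 : ∀ y : C, φ (σ.symm y) = star (φ y) := fun y => RingHom.congr_fun hσ y
      have h3 : σ.symm * σ.symm = 1 := by
        ext y
        apply φ.injective
        rw [AlgEquiv.mul_apply, h2, h2, star_star]
        rfl
      have h4 : σ.symm ∈ H := by
        rw [hH, Subgroup.mem_comap]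
        apply hinv
        have := congrArg e h3
        rwa [map_mul, map_one] at this
      have h5 : σ.symm x = x := hx ⟨σ.symm, h4⟩
      rw [← h2, h5]
    exact isTotallyReal_iff_le_maximalRealSubfield.2 h1

/-- The same as a subfield of `ℂ`, with control of the discriminant. -/
theorem exists_subfield_complex_aux (b q : ℕ) [hq : Fact q.Prime]
    (hmod : q ≡ 1 [MOD 2 * b])
    (C : Type) [Field C] [NumberField C] [IsCyclotomicExtension {q} ℚ C] :
    ∃ (E : IntermediateField ℚ ℂ) (_ : NumberField E), finrank ℚ E = b ∧ IsGalois ℚ E ∧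
      IsTotallyReal E ∧ discr E ∣ (q : ℤ) ^ (q - 2) := by
  have hq0 : NeZero q := ⟨hq.out.ne_zero⟩
  obtain ⟨E, hE1, hE2, hE3⟩ := exists_subfield b q hmod C
  let φ : E →ₐ[ℚ] ℂ := IsAlgClosed.lift
  let f : E ≃ₐ[ℚ] φ.fieldRange := AlgEquiv.ofInjectiveField φ
  have hfin : FiniteDimensional ℚ φ.fieldRange := f.toLinearEquiv.finiteDimensional
  have : NumberField φ.fieldRange := NumberField.mk
  refine ⟨φ.fieldRange, this, ?_, IsGalois.of_algEquiv f,
    IsTotallyReal.ofRingEquiv f.toRingEquiv, ?_⟩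
  · rw [← f.toLinearEquiv.finrank_eq, hE1]
  · rw [← discr_eq_discr_of_ringEquiv E f.toRingEquiv]
    have h1 := discr_dvd_discr E C
    rw [IsCyclotomicExtension.Rat.discr_prime q C] at h1
    refine h1.trans ?_
    rw [← Int.natAbs_dvd_natAbs]
    simp [Int.natAbs_mul, Int.natAbs_pow]

theorem exists_subfield_complex (b q : ℕ) [hq : Fact q.Prime]
    (hmod : q ≡ 1 [MOD 2 * b]) :
    ∃ (E : IntermediateField ℚ ℂ) (_ : NumberField E), finrank ℚ E = b ∧ IsGalois ℚ E ∧
      IsTotallyReal E ∧ discr E ∣ (q : ℤ) ^ (q - 2) := by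
  have hq0 : NeZero q := ⟨hq.out.ne_zero⟩
  have h := CyclotomicField.isCyclotomicExtension q ℚ
  have halg : (CyclotomicField.algebra q ℚ : Algebra ℚ (CyclotomicField q ℚ)) =
    DivisionRing.toRatAlgebra := Subsingleton.elim _ _
  rw [halg] at h
  exact exists_subfield_complex_aux b q hmod (CyclotomicField q ℚ)

/-- an integral irrational element -/
theorem exists_integral_irrational (F : Type) [Field F] [NumberField F] (h : 1 < finrank ℚ F) :
    ∃ α : F, IsIntegral ℤ α ∧ α ∉ Set.range (algebraMap ℚ F) := by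
  by_contra hcon
  push Not at hcon
  have hbt : (⊥ : Subalgebra ℚ F) = ⊤ := by
    rw [eq_top_iff]
    intro y _
    have halg : IsAlgebraic ℤ y :=
      (IsFractionRing.isAlgebraic_iff ℤ ℚ F).2 (Algebra.IsAlgebraic.isAlgebraic y)
    obtain ⟨d, hd, hdy⟩ := halg.exists_integral_multiple
    obtain ⟨r, hr⟩ := hcon _ hdy
    rw [Algebra.mem_bot]
    refine ⟨(d : ℚ)⁻¹ * r, ?_⟩
    have hd' : (d : F) ≠ 0 := by exact_mod_cast hd
    rw [map_mul, hr, map_inv₀, map_intCast, zsmul_eq_mul]
    field_simp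
  have h1 := Subalgebra.bot_eq_top_iff_finrank_eq_one.1 hbt
  omega

set_option backward.isDefEq.respectTransparency false in
theorem linearDisjoint_of_inf (F L : IntermediateField ℚ ℂ) [NumberField F] [NumberField L]
    (h : IsGalois ℚ F) (hinf : F ⊓ L = ⊥) : F.LinearDisjoint L :=
  IntermediateField.LinearDisjoint.of_inf_eq_bot hinf

theorem exists_fields (n : ℕ) (hn : 4 ≤ n) (hc : ¬ n.Prime) :
    ∃ B : ℝ, ∀ N : ℕ, ∃ (K : Type) (_ : Field K) (_ : NumberField K),
      Module.finrank ℚ K = n ∧ NumberField.IsTotallyReal K ∧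
      N ≤ (NumberField.discr K).natAbs ∧
      ∃ x : K, IsIntegral ℤ x ∧ x ∉ Set.range (algebraMap ℚ K) ∧ ∀ s : K →+* ℝ, |s x| ≤ B := by
  -- factorisation of `n`
  obtain ⟨a, b, ha, hb, hab⟩ : ∃ a b : ℕ, 2 ≤ a ∧ 2 ≤ b ∧ a * b = n := by
    obtain ⟨a, ha1, ha2, ha3⟩ := (Nat.not_prime_iff_exists_dvd_lt (by omega)).1 hc
    obtain ⟨b, rfl⟩ := ha1
    refine ⟨a, b, ha2, ?_, rfl⟩
    by_contra hb
    have : b ≤ 1 := by omega
    have := Nat.mul_le_mul_left a this
    omega
  -- the fixed field
  obtain ⟨p, hp, -, hpmod⟩ := Nat.exists_prime_gt_modEq_one (k := 2 * a) 0 (by omega)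
  have : Fact p.Prime := ⟨hp⟩
  obtain ⟨F, hFnf, hF2, hF3, hF4, hF5⟩ := exists_subfield_complex a p hpmod
  -- an integral irrational element of `F`
  obtain ⟨α, hα1, hα2⟩ := exists_integral_irrational F (by omega)
  obtain ⟨B, hB⟩ : ∃ B : ℝ, ∀ s : F →+* ℝ, |s α| ≤ B := by
    obtain ⟨B, hB⟩ := (Set.finite_range fun s : F →+* ℝ => |s α|).bddAbove
    exact ⟨B, fun s => hB ⟨s, rfl⟩⟩
  refine ⟨B, fun N => ?_⟩
  obtain ⟨q, hq, hqN, hqmod⟩ := Nat.exists_prime_gt_modEq_one (k := 2 * b) (N + p) (by omega)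
  have : Fact q.Prime := ⟨hq⟩
  obtain ⟨L, hLnf, hL2, hL3, hL4, hL5⟩ := exists_subfield_complex b q hqmod
  have hcop : IsCoprime (discr F) (discr L) := by
    have h1 : IsCoprime ((p : ℤ) ^ (p - 2)) ((q : ℤ) ^ (q - 2)) := by
      apply IsCoprime.pow
      rw [Nat.isCoprime_iff_coprime]
      exact (Nat.coprime_primes hp hq).2 (by omega)
    exact IsCoprime.of_isCoprime_of_dvd_left (IsCoprime.of_isCoprime_of_dvd_right h1 hL5) hF5
  have hinf : F ⊓ L = ⊥ := by
    have : FiniteDimensional ℚ ↥(F ⊓ L) :=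
      FiniteDimensional.of_injective (IntermediateField.inclusion (inf_le_left : F ⊓ L ≤ F)).toLinearMap
        (IntermediateField.inclusion (inf_le_left : F ⊓ L ≤ F)).injective
    have : NumberField ↥(F ⊓ L) := NumberField.mk
    let a1 : Algebra ↥(F ⊓ L) F :=
      (IntermediateField.inclusion (inf_le_left : F ⊓ L ≤ F)).toRingHom.toAlgebra
    let a2 : Algebra ↥(F ⊓ L) L :=
      (IntermediateField.inclusion (inf_le_right : F ⊓ L ≤ L)).toRingHom.toAlgebra
    have h1 : discr ↥(F ⊓ L) ∣ discr F := discr_dvd_discr _ _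
    have h2 : discr ↥(F ⊓ L) ∣ discr L := discr_dvd_discr _ _
    have h3 : IsUnit (discr ↥(F ⊓ L)) := hcop.isUnit_of_dvd' h1 h2
    rw [← IntermediateField.finrank_eq_one_iff]
    by_contra hne
    have h4 : 1 < finrank ℚ ↥(F ⊓ L) := by
      have : 0 < finrank ℚ ↥(F ⊓ L) := finrank_pos
      omega
    have h5 := abs_discr_gt_two h4
    rw [Int.isUnit_iff_abs_eq.1 h3] at h5
    omega
  have hdisj : F.LinearDisjoint L := linearDisjoint_of_inf F L hF3 hinf
  set K : IntermediateField ℚ ℂ := F ⊔ L with hK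
  have hfinK : FiniteDimensional ℚ K := IntermediateField.finiteDimensional_sup F L
  have : NumberField K := NumberField.mk
  have hrank : finrank ℚ K = n := by
    rw [hK, hdisj.finrank_sup, hF2, hL2, hab]
  have hFK : F ≤ K := le_sup_left
  have hLK : L ≤ K := le_sup_right
  -- `K` is totally real
  have hreal : IsTotallyReal K := by
    rw [← maximalRealSubfield_eq_top_iff_isTotallyReal, eq_top_iff]
    set M := maximalRealSubfield K
    have key : ∀ (E : IntermediateField ℚ ℂ) (hE : E ≤ K), IsTotallyReal E →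
        E.toSubfield ≤ M.map K.val.toRingHom := by
      intro E hE hEr x hx
      refine ⟨IntermediateField.inclusion hE ⟨x, hx⟩, ?_, rfl⟩
      change ∀ φ : K →+* ℂ, star (φ _) = φ _
      intro φ
      have h1 := IsTotallyReal.complexEmbedding_isReal
        (φ.comp (IntermediateField.inclusion hE).toRingHom)
      exact RingHom.congr_fun (ComplexEmbedding.isReal_iff.1 h1) ⟨x, hx⟩
    have h1 : K.toSubfield ≤ M.map K.val.toRingHom := by
      refine (IntermediateField.sup_toSubfield F L).le.trans ?_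
      exact sup_le (key F hFK hF4) (key L hLK hL4)
    rintro ⟨x, hx⟩ -
    obtain ⟨y, hy, hyx⟩ := h1 hx
    have : y = ⟨x, hx⟩ := Subtype.ext hyx
    rw [← this]
    exact hy
  -- the discriminant of `K`
  have hdisc : (q : ℤ) ∣ discr K := by
    let a2 : Algebra L K := (IntermediateField.inclusion hLK).toRingHom.toAlgebra
    have h1 : discr L ∣ discr K := discr_dvd_discr _ _
    refine dvd_trans ?_ h1
    have h2 := abs_discr_gt_two (K := L) (by omega)
    have h3 : (discr L).natAbs ∣ q ^ (q - 2) := by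
      have := Int.natAbs_dvd_natAbs.2 hL5
      rwa [Int.natAbs_pow, Int.natAbs_natCast] at this
    obtain ⟨k, -, hk⟩ := (Nat.dvd_prime_pow hq).1 h3
    have h4 : k ≠ 0 := by
      rintro rfl
      rw [pow_zero] at hk
      rw [Int.abs_eq_natAbs, hk] at h2
      norm_num at h2
    rw [Int.natCast_dvd, hk]
    exact dvd_pow_self q h4
  refine ⟨K, inferInstance, inferInstance, hrank, hreal, ?_,
    IntermediateField.inclusion hFK α, ?_, ?_, ?_⟩
  · have h1 : q ≤ (discr K).natAbs := by
      apply Nat.le_of_dvd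
      · exact Int.natAbs_pos.2 (discr_ne_zero K)
      · exact Int.natCast_dvd.1 hdisc
    omega
  · exact hα1.map (IntermediateField.inclusion hFK).toRingHom.toIntAlgHom
  · rintro ⟨r, hr⟩
    apply hα2
    refine ⟨r, ?_⟩
    apply (IntermediateField.inclusion hFK).injective
    refine Eq.trans ?_ hr
    simp
  · intro s
    exact hB (s.comp (IntermediateField.inclusion hFK).toRingHom)

end Vale.Agent.P007
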