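import Vale.Agent.P007.Span

open MeasureTheory Filter Topology Module NumberField

namespace Vale.Agent.P007

variable {n : ℕ}

theorem orbitA_right (u : Fin (n - 1) → ℝ) (x : X n) : orbitA (X.right (diagA u) x) = orbitA x := by
  ext y
  constructor
  · rintro ⟨v, rfl⟩
    refine ⟨u + v, ?_⟩
    change X.right (diagA (u + v)) x = X.right (diagA v) (X.right (diagA u) x)
    rw [diagA_add, X.right_mul]
  · rintro ⟨v, rfl⟩
    refine ⟨v - u, ?_⟩
    change X.right (diagA (v - u)) (X.right (diagA u) x) = X.right (diagA v) x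
    rw [← X.right_mul, ← diagA_add, add_sub_cancel]

namespace Datum

variable (D : Datum n)

theorem exists_smul_basis {I I' : D.FI} {β : D.K}
    (hβ : β ≠ 0) (h : ∀ z, β * z ∈ D.zmod I ↔ z ∈ D.zmod I') :
    ZLattice.covolume (D.idealLattice I) volume =
      |∏ j, D.σ j β| * ZLattice.covolume (D.idealLattice I') volume := by
  obtain ⟨b, hb⟩ := D.exists_basis I'
  let m : D.K ≃ₗ[ℚ] D.K := LinearEquiv.smulOfNeZero D.K D.K β hβ |>.restrictScalars ℚ
  have hm : ∀ z, m z = β * z := fun z => rfl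
  have hb' : D.zmod I = Submodule.span ℤ (Set.range (b.map m)) := by
    have h1 : D.zmod I = (D.zmod I').map (m.toLinearMap.restrictScalars ℤ) := by
      ext z
      constructor
      · intro hz
        refine ⟨β⁻¹ * z, ?_, ?_⟩
        · rw [SetLike.mem_coe, ← h, mul_inv_cancel_left₀ hβ]
          exact hz
        · change β * (β⁻¹ * z) = z
          rw [mul_inv_cancel_left₀ hβ]
      · rintro ⟨y, hy, rfl⟩
        exact (h y).2 hy
    rw [h1, hb, Submodule.map_span, ← Set.range_comp]
    rfl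
  rw [D.covolume_idealLattice hb', D.covolume_idealLattice hb]
  have h2 : D.embMat (b.map m) = D.embMat b * Matrix.diagonal (fun j => D.σ j β) := by
    ext i j
    rw [Matrix.mul_diagonal]
    change D.σ j (β * b i) = D.σ j (b i) * D.σ j β
    rw [map_mul, mul_comm]
  rw [h2, Matrix.det_mul, Matrix.det_diagonal, abs_mul, mul_comm]

/-- Proportional ideals have the same orbits, up to the choice of signs. -/
theorem orbit_eq_of_smul {I I' : D.FI} {β : D.K}
    (hβ : β ≠ 0) (h : ∀ z, β * z ∈ D.zmod I ↔ z ∈ D.zmod I') {w : Fin n → ℝ}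
    (hw : ∀ j, w j = 1 ∨ w j = -1) {x : X n} (hx : IsPointOf (D.latticeSet I w) x) :
    ∃ (w' : Fin n → ℝ) (x' : X n), (∀ j, w' j = 1 ∨ w' j = -1) ∧
      IsPointOf (D.latticeSet I' w') x' ∧ orbitA x = orbitA x' := by
  have hσ : ∀ j, D.σ j β ≠ 0 := fun j => by rw [Ne, map_eq_zero]; exact hβ
  let s : ℝ := (1 / n) * ∑ k, Real.log |D.σ k β|
  have hn : (n : ℝ) ≠ 0 := by exact_mod_cast D.n_pos.ne'
  have hsum : ∑ j, (Real.log |D.σ j β| - s) = 0 := by
    rw [Finset.sum_sub_distrib, Finset.sum_const, Finset.card_univ, Fintype.card_fin,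
      nsmul_eq_mul]
    simp only [s]
    field_simp
    ring
  let u : Fin (n - 1) → ℝ := fun i => Real.log |D.σ ⟨i, by omega⟩ β| - s
  have hu : ext u = fun j => Real.log |D.σ j β| - s := ext_of_sum_zero hsum
  let w' : Fin n → ℝ := fun j => w j * (D.σ j β / |D.σ j β|)
  have hw' : ∀ j, w' j = 1 ∨ w' j = -1 := by
    intro j
    have h1 : D.σ j β / |D.σ j β| = 1 ∨ D.σ j β / |D.σ j β| = -1 := by
      rcases lt_or_gt_of_ne (hσ j) with h | h
      · right; rw [abs_of_neg h, div_neg, div_self (hσ j)]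
      · left; rw [abs_of_pos h, div_self (hσ j)]
    rcases hw j with h2 | h2 <;> rcases h1 with h3 | h3 <;> simp [w', h2, h3]
  obtain ⟨x', hx'⟩ := D.exists_isPointOf I' hw'
  refine ⟨w', x', hw', hx', ?_⟩
  -- the scaling factors
  have hscal : D.scal I = D.scal I' * Real.exp (-s) := by
    have hprod : 0 < |∏ j, D.σ j β| := abs_pos.2 (Finset.prod_ne_zero_iff.2 fun j _ => hσ j)
    unfold scal
    rw [D.exists_smul_basis hβ h, Real.mul_rpow hprod.le (D.covolume_pos I').le, mul_comm]
    congr 1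
    rw [Real.rpow_def_of_pos hprod, Finset.abs_prod, Real.log_prod fun j _ => abs_ne_zero.2 (hσ j)]
    congr 1
    simp only [s]
    ring
  have hset : D.latticeSet I w =
      (fun v => v * (fun j => Real.exp (ext u j))) '' (D.latticeSet I' w') := by
    have key : ∀ z : D.K, (fun j => D.σ j (β * z) * (D.scal I * w j)) =
        fun j => D.σ j z * (D.scal I' * w' j) * Real.exp (ext u j) := by
      intro z
      funext j
      rw [hu, hscal, map_mul]
      simp only [w']
      rw [sub_eq_add_neg, Real.exp_add, Real.exp_log (abs_pos.2 (hσ j))]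
      have := abs_ne_zero.2 (hσ j)
      field_simp
    rw [D.latticeSet_eq, D.latticeSet_eq, Set.image_image, D.coe_idealLattice,
      D.coe_idealLattice]
    ext v
    constructor
    · rintro ⟨_, ⟨z, hz, rfl⟩, rfl⟩
      refine ⟨D.emb (β⁻¹ * z), ⟨β⁻¹ * z, ?_, rfl⟩, ?_⟩
      · exact (h _).1 (by rw [mul_inv_cancel_left₀ hβ]; exact hz)
      · have := key (β⁻¹ * z)
        rw [mul_inv_cancel_left₀ hβ] at this
        exact this.symm
    · rintro ⟨_, ⟨z, hz, rfl⟩, rfl⟩
      exact ⟨D.emb (β * z), ⟨β * z, (h z).2 hz, rfl⟩, key z⟩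
  have h1 := isPointOf_right hx' (a := diagA u) (α := fun j => Real.exp (ext u j)) rfl
  rw [← hset] at h1
  rw [isPointOf_unique hx h1, orbitA_right]

end Datum

end Vale.Agent.P007
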