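import Vale.Agent.P007.Topo

open MeasureTheory Filter Topology Module

namespace Vale.Agent.P007

variable {n : ℕ}

open Matrix

theorem mem_rowLattice_iff {g : SLn n} {v : Fin n → ℝ} :
    v ∈ rowLattice g ↔ ∃ z : Fin n → ℤ, (fun i => (z i : ℝ)) ᵥ* (g : Matrix (Fin n) (Fin n) ℝ) = v := by
  rw [rowLattice, Submodule.mem_span_range_iff_exists_fun]
  constructor
  · rintro ⟨c, rfl⟩
    refine ⟨c, ?_⟩
    rw [Matrix.vecMul_eq_sum]
    refine Finset.sum_congr rfl fun i _ => ?_
    exact Int.cast_smul_eq_zsmul ℝ (c i) _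
  · rintro ⟨z, rfl⟩
    refine ⟨z, ?_⟩
    rw [Matrix.vecMul_eq_sum]
    refine Finset.sum_congr rfl fun i _ => ?_
    exact (Int.cast_smul_eq_zsmul ℝ (z i) _).symm

theorem row_mem_rowLattice (g : SLn n) (i : Fin n) :
    (g : Matrix (Fin n) (Fin n) ℝ) i ∈ rowLattice g :=
  Submodule.subset_span ⟨i, rfl⟩

theorem exists_int_matrix {g h : SLn n} (H : rowLattice g ≤ rowLattice h) :
    ∃ Z : Matrix (Fin n) (Fin n) ℤ,
      Z.map (Int.castRingHom ℝ) * (h : Matrix (Fin n) (Fin n) ℝ) = g := by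
  have h1 : ∀ i, ∃ z : Fin n → ℤ,
      (fun i => (z i : ℝ)) ᵥ* (h : Matrix (Fin n) (Fin n) ℝ) = (g : Matrix (Fin n) (Fin n) ℝ) i :=
    fun i => mem_rowLattice_iff.1 (H (row_mem_rowLattice g i))
  choose Z hZ using h1
  refine ⟨Matrix.of Z, ?_⟩
  ext i j
  have := congrFun (hZ i) j
  rw [← this]
  simp [Matrix.mul_apply, Matrix.vecMul, dotProduct]

theorem rowLattice_int_mul (γ : Matrix.SpecialLinearGroup (Fin n) ℤ) (h : SLn n) :
    rowLattice (Matrix.SpecialLinearGroup.map (Int.castRingHom ℝ) γ * h) ≤ rowLattice h := by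
  intro v hv
  obtain ⟨z, rfl⟩ := mem_rowLattice_iff.1 hv
  refine mem_rowLattice_iff.2 ⟨z ᵥ* (γ : Matrix (Fin n) (Fin n) ℤ), ?_⟩
  rw [Matrix.SpecialLinearGroup.coe_mul, ← Matrix.vecMul_vecMul]
  congr 1
  funext j
  rw [Matrix.SpecialLinearGroup.map_apply_coe]
  simp [Matrix.vecMul, dotProduct]

theorem mk_eq_mk_iff_rowLattice {g h : SLn n} :
    X.mk g = X.mk h ↔ rowLattice g = rowLattice h := by
  rw [mk_eq_mk_iff]
  constructor
  · rintro ⟨γ, rfl⟩
    refine le_antisymm (rowLattice_int_mul γ h) ?_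
    have := rowLattice_int_mul γ⁻¹ (Matrix.SpecialLinearGroup.map (Int.castRingHom ℝ) γ * h)
    rwa [map_inv, inv_mul_cancel_left] at this
  · intro H
    obtain ⟨Z, hZ⟩ := exists_int_matrix H.le
    have hdet : Z.det = 1 := by
      have h2 := congrArg Matrix.det hZ
      rw [Matrix.det_mul, Matrix.SpecialLinearGroup.det_coe, Matrix.SpecialLinearGroup.det_coe,
        mul_one, ← RingHom.mapMatrix_apply, ← RingHom.map_det, eq_intCast] at h2
      exact_mod_cast h2
    exact ⟨⟨Z, hdet⟩, Subtype.ext hZ⟩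

theorem rowLattice_mul_diag {g : SLn n} {a : SLn n} {α : Fin n → ℝ}
    (ha : (a : Matrix (Fin n) (Fin n) ℝ) = Matrix.diagonal α) (v : Fin n → ℝ) :
    v ∈ rowLattice (g * a) ↔ ∃ v' ∈ rowLattice g, v = v' * α := by
  have key : ∀ z : Fin n → ℤ, (fun i => (z i : ℝ)) ᵥ* ((g * a : SLn n) : Matrix (Fin n) (Fin n) ℝ) =
      ((fun i => (z i : ℝ)) ᵥ* (g : Matrix (Fin n) (Fin n) ℝ)) * α := by
    intro z
    rw [Matrix.SpecialLinearGroup.coe_mul, ha, ← Matrix.vecMul_vecMul]
    funext j
    simp [Matrix.vecMul_diagonal]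
  constructor
  · intro hv
    obtain ⟨z, rfl⟩ := mem_rowLattice_iff.1 hv
    exact ⟨_, mem_rowLattice_iff.2 ⟨z, rfl⟩, key z⟩
  · rintro ⟨v', hv', rfl⟩
    obtain ⟨z, rfl⟩ := mem_rowLattice_iff.1 hv'
    exact mem_rowLattice_iff.2 ⟨z, key z⟩

/-- The set of the points of `X n` whose lattice is stable under multiplication by `diag(d)`. -/
def Ystab (d : Fin n → ℝ) : Set (X n) :=
  {x | ∃ g : SLn n, X.mk g = x ∧ ∀ v ∈ rowLattice g, v * d ∈ rowLattice g}

/-- The integral matrices as a subset of the real ones. -/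
def intMat (n : ℕ) : Set (Matrix (Fin n) (Fin n) ℝ) :=
  {M | ∀ i j, M i j ∈ Set.range ((↑) : ℤ → ℝ)}

theorem isClosed_intMat : IsClosed (intMat n) := by
  have : intMat n = ⋂ i, ⋂ j, {M : Matrix (Fin n) (Fin n) ℝ | M i j ∈ Set.range ((↑) : ℤ → ℝ)} := by
    ext M; simp [intMat]
  rw [this]
  refine isClosed_iInter fun i => isClosed_iInter fun j => ?_
  exact Int.isClosedEmbedding_coe_real.isClosed_range.preimage (by fun_prop)

theorem mem_Ystab_mk_iff {d : Fin n → ℝ} {g : SLn n} :
    X.mk g ∈ Ystab d ↔ (g : Matrix (Fin n) (Fin n) ℝ) * Matrix.diagonal d *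
      ((g⁻¹ : SLn n) : Matrix (Fin n) (Fin n) ℝ) ∈ intMat n := by
  constructor
  · rintro ⟨h, hgh, hh⟩
    have hL := mk_eq_mk_iff_rowLattice.1 hgh
    rw [hL] at hh
    have h1 : ∀ i, ∃ z : Fin n → ℤ, (fun i => (z i : ℝ)) ᵥ* (g : Matrix (Fin n) (Fin n) ℝ) =
        (g : Matrix (Fin n) (Fin n) ℝ) i * d :=
      fun i => mem_rowLattice_iff.1 (hh _ (row_mem_rowLattice g i))
    choose Z hZ using h1
    have h2 : (g : Matrix (Fin n) (Fin n) ℝ) * Matrix.diagonal d =
        (Matrix.of fun i j => (Z i j : ℝ)) * (g : Matrix (Fin n) (Fin n) ℝ) := by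
      ext i j
      rw [Matrix.mul_diagonal]
      have := congrFun (hZ i) j
      rw [Pi.mul_apply] at this
      rw [← this]
      simp [Matrix.mul_apply, Matrix.vecMul, dotProduct]
    rw [h2, Matrix.mul_assoc, ← Matrix.SpecialLinearGroup.coe_mul, mul_inv_cancel,
      Matrix.SpecialLinearGroup.coe_one, Matrix.mul_one]
    intro i j
    exact ⟨Z i j, rfl⟩
  · intro hM
    choose Z hZ using hM
    have h2 : (g : Matrix (Fin n) (Fin n) ℝ) * Matrix.diagonal d =
        (Matrix.of fun i j => (Z i j : ℝ)) * (g : Matrix (Fin n) (Fin n) ℝ) := by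
      have h3 : (Matrix.of fun i j => (Z i j : ℝ)) =
          (g : Matrix (Fin n) (Fin n) ℝ) * Matrix.diagonal d *
            ((g⁻¹ : SLn n) : Matrix (Fin n) (Fin n) ℝ) := by
        ext i j
        exact hZ i j
      rw [h3, Matrix.mul_assoc, ← Matrix.SpecialLinearGroup.coe_mul, inv_mul_cancel,
        Matrix.SpecialLinearGroup.coe_one, Matrix.mul_one]
    refine ⟨g, rfl, fun v hv => ?_⟩
    obtain ⟨z, rfl⟩ := mem_rowLattice_iff.1 hv
    refine mem_rowLattice_iff.2 ⟨z ᵥ* (Matrix.of Z), ?_⟩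
    have h4 : ((fun i => (z i : ℝ)) ᵥ* (g : Matrix (Fin n) (Fin n) ℝ)) * d =
        (fun i => (z i : ℝ)) ᵥ* ((g : Matrix (Fin n) (Fin n) ℝ) * Matrix.diagonal d) := by
      rw [← Matrix.vecMul_vecMul]
      funext j
      simp [Matrix.vecMul_diagonal]
    rw [h4, h2, ← Matrix.vecMul_vecMul]
    congr 1
    funext j
    simp [Matrix.vecMul, dotProduct]

theorem isClosed_Ystab (d : Fin n → ℝ) : IsClosed (Ystab d) := by
  rw [← isOpenQuotientMap_mk.isQuotientMap.isClosed_preimage]
  have : X.mk ⁻¹' (Ystab d) = {g : SLn n | (g : Matrix (Fin n) (Fin n) ℝ) * Matrix.diagonal d *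
      ((g⁻¹ : SLn n) : Matrix (Fin n) (Fin n) ℝ) ∈ intMat n} := by
    ext g
    exact mem_Ystab_mk_iff
  rw [this]
  refine isClosed_intMat.preimage ?_
  have c1 : Continuous fun g : SLn n => (g : Matrix (Fin n) (Fin n) ℝ) := continuous_subtype_val
  have c2 : Continuous fun g : SLn n => ((g⁻¹ : SLn n) : Matrix (Fin n) (Fin n) ℝ) :=
    continuous_subtype_val.comp continuous_inv
  exact (c1.mul continuous_const).mul c2

/-- the transvection as an element of `SL_n(ℝ)` -/
noncomputable def transv {i j : Fin n} (hij : i ≠ j) (t : ℝ) : SLn n :=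
  ⟨Matrix.transvection i j t, Matrix.det_transvection_of_ne i j hij t⟩

theorem dense_compl_Ystab {d : Fin n → ℝ} {i j : Fin n} (hd : d i ≠ d j) :
    Dense {g : SLn n | X.mk g ∉ Ystab d} := by
  intro g₀
  by_cases hg : X.mk g₀ ∈ Ystab d
  swap
  · exact subset_closure hg
  have hij : i ≠ j := fun h => hd (by rw [h])
  -- the path
  have hcont : Continuous fun t : ℝ => g₀ * transv hij t := by
    refine continuous_const.mul ?_
    refine Continuous.subtype_mk ?_ _
    refine continuous_matrix fun k l => ?_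
    have : ∀ t : ℝ, Matrix.transvection i j t k l =
        (1 : Matrix (Fin n) (Fin n) ℝ) k l + if i = k ∧ j = l then t else 0 := fun t => rfl
    simp only [this]
    refine continuous_const.add ?_
    split_ifs
    · exact continuous_id
    · exact continuous_const
  have h0 : g₀ * transv hij 0 = g₀ := by
    have : transv hij (0 : ℝ) = 1 := Subtype.ext (by simp [transv])
    rw [this, mul_one]
  have hlim : Tendsto (fun t : ℝ => g₀ * transv hij t) (𝓝[>] 0) (𝓝 g₀) := by
    have := hcont.tendsto 0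
    rw [h0] at this
    exact this.mono_left nhdsWithin_le_nhds
  -- the conjugate of the elementary matrix
  set P : Matrix (Fin n) (Fin n) ℝ := (g₀ : Matrix (Fin n) (Fin n) ℝ) * Matrix.single i j (1 : ℝ) *
      ((g₀⁻¹ : SLn n) : Matrix (Fin n) (Fin n) ℝ) with hP
  have hPne : P ≠ 0 := by
    intro hcon
    have h1 : ((g₀⁻¹ : SLn n) : Matrix (Fin n) (Fin n) ℝ) * P * (g₀ : Matrix (Fin n) (Fin n) ℝ) =
        Matrix.single i j (1 : ℝ) := by
      rw [hP, Matrix.mul_assoc, Matrix.mul_assoc, ← Matrix.SpecialLinearGroup.coe_mul,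
        inv_mul_cancel, Matrix.SpecialLinearGroup.coe_one, Matrix.mul_one, ← Matrix.mul_assoc,
        ← Matrix.SpecialLinearGroup.coe_mul,
        inv_mul_cancel, Matrix.SpecialLinearGroup.coe_one, Matrix.one_mul]
    rw [hcon, Matrix.mul_zero, Matrix.zero_mul] at h1
    have := congrFun (congrFun h1 i) j
    simp at this
  obtain ⟨k, l, hkl⟩ : ∃ k l, P k l ≠ 0 := by
    by_contra hcon
    push Not at hcon
    exact hPne (by ext a b; exact hcon a b)
  have hconj : ∀ t : ℝ, ((g₀ * transv hij t : SLn n) : Matrix (Fin n) (Fin n) ℝ) *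
      Matrix.diagonal d * (((g₀ * transv hij t)⁻¹ : SLn n) : Matrix (Fin n) (Fin n) ℝ) =
      (g₀ : Matrix (Fin n) (Fin n) ℝ) * Matrix.diagonal d *
      ((g₀⁻¹ : SLn n) : Matrix (Fin n) (Fin n) ℝ) + (t * (d j - d i)) • P := by
    intro t
    have hinv : (transv hij t)⁻¹ = transv hij (-t) := by
      rw [inv_eq_iff_mul_eq_one]
      apply Subtype.ext
      rw [Matrix.SpecialLinearGroup.coe_mul]
      simp [transv, Matrix.transvection_mul_transvection_same i j hij]
    rw [_root_.mul_inv_rev, hinv, Matrix.SpecialLinearGroup.coe_mul, Matrix.SpecialLinearGroup.coe_mul]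
    have hmid : Matrix.transvection i j t * Matrix.diagonal d * Matrix.transvection i j (-t) =
        Matrix.diagonal d + (t * (d j - d i)) • Matrix.single i j (1 : ℝ) := by
      have e1 : Matrix.single i j t * Matrix.diagonal d = Matrix.single i j (t * d j) := by
        ext a b
        simp only [Matrix.mul_diagonal, Matrix.single_apply]
        split_ifs with hab
        · rw [hab.2]
        · simp
      have e2 : Matrix.diagonal d * Matrix.single i j (-t) = Matrix.single i j (d i * (-t)) := by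
        ext a b
        simp only [Matrix.diagonal_mul, Matrix.single_apply]
        split_ifs with hab
        · rw [hab.1]
        · simp
      have e3 : Matrix.single i j (t * d j) * Matrix.single i j (-t) = 0 :=
        Matrix.single_mul_single_of_ne _ _ _ _ hij.symm _
      simp only [Matrix.transvection]
      rw [add_mul, one_mul, mul_add, mul_one, add_mul, e1, e2, e3, add_zero, add_assoc,
        ← Matrix.single_add, Matrix.smul_single]
      congr 2
      simp
      ring
    calc _ = (g₀ : Matrix (Fin n) (Fin n) ℝ) * (Matrix.transvection i j t * Matrix.diagonal d *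
          Matrix.transvection i j (-t)) * ((g₀⁻¹ : SLn n) : Matrix (Fin n) (Fin n) ℝ) := by
            simp only [transv, Matrix.mul_assoc]
      _ = _ := by
            rw [hmid, Matrix.mul_add, Matrix.add_mul, Matrix.mul_smul, Matrix.smul_mul, hP]
  refine mem_closure_of_tendsto hlim ?_
  -- the entry `k l` is not an integer for small positive `t`
  set c : ℝ := (d j - d i) * P k l with hc
  have hc0 : c ≠ 0 := mul_ne_zero (sub_ne_zero.2 (Ne.symm hd)) hkl
  have hev : ∀ᶠ t : ℝ in 𝓝[>] 0, t * |c| < 1 := by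
    have : Tendsto (fun t : ℝ => t * |c|) (𝓝[>] 0) (𝓝 (0 * |c|)) :=
      ((continuous_id.mul continuous_const).tendsto 0).mono_left nhdsWithin_le_nhds
    rw [zero_mul] at this
    exact this.eventually (gt_mem_nhds one_pos)
  filter_upwards [hev, self_mem_nhdsWithin] with t ht ht0
  intro hmem
  rw [mem_Ystab_mk_iff, hconj t] at hmem
  obtain ⟨a, ha⟩ := hmem k l
  obtain ⟨b, hb⟩ := (mem_Ystab_mk_iff.1 hg) k l
  rw [Matrix.add_apply, ← hb, Matrix.smul_apply, smul_eq_mul] at ha
  have hint : ((a - b : ℤ) : ℝ) = t * c := by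
    push_cast
    rw [ha, hc]
    ring
  have hpos : 0 < t * |c| := mul_pos ht0 (abs_pos.2 hc0)
  have habs : |((a - b : ℤ) : ℝ)| = t * |c| := by
    rw [hint, abs_mul, abs_of_pos ht0]
  rw [← habs] at hpos ht
  have h1 : |(a - b : ℤ)| < 1 := by
    exact_mod_cast ht
  have h2 : 0 < |(a - b : ℤ)| := by
    exact_mod_cast hpos
  omega

/-- The union of finitely many of the sets `Ystab d` with `d` nonconstant misses a nonempty
open set. -/
theorem exists_open_avoiding {T : Set (Fin n → ℝ)} (hT : T.Finite)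
    (hconst : ∀ d ∈ T, ∃ i j, d i ≠ d j) :
    IsOpen (⋂ d ∈ T, (Ystab d)ᶜ) ∧ (⋂ d ∈ T, (Ystab d)ᶜ).Nonempty := by
  refine ⟨hT.isOpen_biInter fun d _ => (isClosed_Ystab d).isOpen_compl, ?_⟩
  have hdense : Dense (⋂ d ∈ T, {g : SLn n | X.mk g ∉ Ystab d}) := by
    refine dense_biInter_of_isOpen (fun d _ => ?_) hT.countable fun d hd => ?_
    · exact (isClosed_Ystab d).isOpen_compl.preimage continuous_mk
    · obtain ⟨i, j, hij⟩ := hconst d hd
      exact dense_compl_Ystab hij
  obtain ⟨g, hg⟩ := hdense.nonempty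
  refine ⟨X.mk g, ?_⟩
  simp only [Set.mem_iInter, Set.mem_compl_iff] at hg ⊢
  intro d hd
  exact hg d hd

end Vale.Agent.P007
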