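import Vale.Agent.P007.Obstruction
import Vale.Agent.P007.Fields

open MeasureTheory Filter Topology Module NumberField

namespace Vale.Agent.P007

/-- the ordering of the real embeddings of a totally real field -/
theorem exists_ordering (n : ℕ) (K : Type) [Field K] [NumberField K] [IsTotallyReal K]
    (hK : finrank ℚ K = n) : Nonempty (Fin n ≃ (K →+* ℝ)) := by
  have hbij : Function.Bijective fun s : K →+* ℝ => Complex.ofRealHom.comp s := by
    constructor
    · intro s t hst
      ext x
      have := RingHom.congr_fun hst x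
      simpa using this
    · intro φ
      have hφ : ComplexEmbedding.IsReal φ := IsTotallyReal.complexEmbedding_isReal φ
      refine ⟨hφ.embedding, ?_⟩
      ext x
      exact hφ.coe_embedding_apply x
  have hcard : Fintype.card (K →+* ℝ) = n := by
    rw [Fintype.card_of_bijective hbij, Embeddings.card K ℂ, hK]
  exact ⟨(Fintype.equivFinOfCardEq hcard).symm⟩

/-- the maximal order of a totally real field as a datum -/
noncomputable def maxDatum (n : ℕ) (K : Type) [Field K] [NumberField K] [IsTotallyReal K]
    (hK : finrank ℚ K = n) : Datum n where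
  K := K
  finrank_eq := hK
  σ := (exists_ordering n K hK).some
  O := (integralClosure ℤ K).toSubring
  integral x hx := hx
  full := by
    rw [eq_top_iff]
    intro y _
    have halg : IsAlgebraic ℤ y :=
      (IsFractionRing.isAlgebraic_iff ℤ ℚ K).2 (Algebra.IsAlgebraic.isAlgebraic y)
    obtain ⟨d, hd, hdy⟩ := halg.exists_integral_multiple
    have hd' : (d : K) ≠ 0 := by exact_mod_cast hd
    have : y = (d : ℚ)⁻¹ • (d • y) := by
      rw [zsmul_eq_mul, Algebra.smul_def, map_inv₀, map_intCast]
      field_simp
    rw [this]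
    exact Submodule.smul_mem _ _ (Submodule.subset_span hdy)

theorem maxDatum_absDisc (n : ℕ) (K : Type) [Field K] [NumberField K] [IsTotallyReal K]
    (hK : finrank ℚ K = n) : (maxDatum n K hK).absDisc = (discr K).natAbs := by
  unfold Datum.absDisc
  have : (maxDatum n K hK).O = (maxDatum n K hK).maxOrder := rfl
  rw [this, AddSubgroup.relIndex_self]
  simp [maxDatum]

/-- **Counterexample in composite degree.** -/
theorem exists_counterexample (n : ℕ) (hn : 4 ≤ n) (hc : ¬ n.Prime) :
    ∃ B : ℝ, ∃ D : ℕ → Datum n,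
      (∀ i, (D i).O = (D i).maxOrder) ∧
      Tendsto (fun i => (D i).absDisc) atTop atTop ∧
      ∀ i, ∃ x ∈ (D i).O, x ∉ Set.range (algebraMap ℚ (D i).K) ∧ ∀ j, |(D i).σ j x| ≤ B := by
  obtain ⟨B, hB⟩ := exists_fields n hn hc
  refine ⟨B, ?_⟩
  choose K iF iN h1 h2 h3 x hx1 hx2 hx3 using hB
  refine ⟨fun i => maxDatum n (K i) (h1 i), fun i => rfl, ?_, fun i => ?_⟩
  · simp only [maxDatum_absDisc]
    exact tendsto_atTop_mono h3 tendsto_id
  · exact ⟨x i, hx1 i, hx2 i, fun j => hx3 i _⟩

end Vale.Agent.P007
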