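import Vale.Agent.P007.Lattice

open MeasureTheory Filter Topology Module

namespace Vale.Agent.P007

variable {n : ℕ}

namespace Datum

variable (D : Datum n)

theorem card_embeddings : Fintype.card (D.K →+* ℂ) = n := by
  rw [NumberField.Embeddings.card D.K ℂ, D.finrank_eq]

/-- every complex embedding is one of the real embeddings `σ_j` -/
theorem exists_complex_eq (φ : D.K →+* ℂ) : ∃ j, φ = Complex.ofRealHom.comp (D.σ j) := by
  have hinj : Function.Injective fun j : Fin n => Complex.ofRealHom.comp (D.σ j) := by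
    intro i j hij
    apply D.σ.injective
    ext x
    have := RingHom.congr_fun hij x
    simpa using this
  have hbij : Function.Bijective fun j : Fin n => Complex.ofRealHom.comp (D.σ j) := by
    rw [Fintype.bijective_iff_injective_and_card]
    exact ⟨hinj, by rw [D.card_embeddings, Fintype.card_fin]⟩
  obtain ⟨j, hj⟩ := hbij.2 φ
  exact ⟨j, hj.symm⟩

end Datum

/-- Northcott: for given `B`, the vectors of conjugates of the elements of all the orders, with
all coordinates bounded by `B`, form a finite set. -/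
theorem finite_conj (n : ℕ) (B : ℝ) :
    {d : Fin n → ℝ | ∃ (D : Datum n) (x : D.K), IsIntegral ℤ x ∧ (∀ j, |D.σ j x| ≤ B) ∧
      d = fun j => D.σ j x}.Finite := by
  classical
  let C := Nat.ceil (max B 1 ^ n * (n.choose (n / 2)))
  have hfin := Polynomial.bUnion_roots_finite (algebraMap ℤ ℝ) n (Set.finite_Icc (-C : ℤ) C)
  refine (Set.Finite.pi' fun _ : Fin n => hfin).subset ?_
  rintro _ ⟨D, x, hint, hx, rfl⟩ j
  simp_rw [Set.mem_iUnion]
  have hx' : ∀ φ : D.K →+* ℂ, ‖φ x‖ ≤ B := by
    intro φ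
    obtain ⟨k, rfl⟩ := D.exists_complex_eq φ
    simpa using hx k
  have h_map := minpoly.isIntegrallyClosed_eq_field_fractions' ℚ hint
  refine ⟨minpoly ℤ x, ⟨?_, fun i => ?_⟩, ?_⟩
  · rw [← (minpoly.monic hint).natDegree_map (algebraMap ℤ ℚ), ← h_map]
    exact (minpoly.natDegree_le x).trans_eq D.finrank_eq
  · rw [Set.mem_Icc, ← abs_le, ← @Int.cast_le ℝ]
    have h1 := NumberField.Embeddings.coeff_bdd_of_norm_le hx' i
    rw [h_map, Polynomial.coeff_map, eq_intCast, Int.norm_cast_rat, Int.norm_eq_abs,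
      D.finrank_eq] at h1
    rw [Int.cast_abs]
    refine h1.trans ?_
    exact_mod_cast Nat.le_ceil (max B 1 ^ n * ((n.choose (n / 2) : ℕ) : ℝ))
  · rw [Finset.mem_coe, Multiset.mem_toFinset, Polynomial.mem_roots]
    · rw [Polynomial.IsRoot, Polynomial.eval_map_algebraMap]
      have h3 := Polynomial.aeval_algHom_apply ((D.σ j).toIntAlgHom) x (minpoly ℤ x)
      rw [minpoly.aeval, map_zero] at h3
      exact h3
    · exact Polynomial.map_monic_ne_zero (minpoly.monic hint)

/-- an element all of whose conjugates are equal is rational -/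
theorem mem_range_of_const (D : Datum n) (x : D.K) (h : ∀ i j, D.σ i x = D.σ j x) :
    x ∈ Set.range (algebraMap ℚ D.K) := by
  have hrange := NumberField.Embeddings.range_eval_eq_rootSet_minpoly D.K ℂ x
  have hint : IsIntegral ℚ x := Algebra.IsIntegral.isIntegral x
  have hcard := Polynomial.card_rootSet_eq_natDegree (K := ℂ)
    (minpoly.irreducible hint).separable (IsAlgClosed.splits _)
  have hsub : ((minpoly ℚ x).rootSet ℂ).Subsingleton := by
    rw [← hrange]
    rintro _ ⟨φ, rfl⟩ _ ⟨ψ, rfl⟩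
    obtain ⟨i, rfl⟩ := D.exists_complex_eq φ
    obtain ⟨j, rfl⟩ := D.exists_complex_eq ψ
    simp [h i j]
  have h1 : (minpoly ℚ x).natDegree ≤ 1 := by
    rw [← hcard, Fintype.card_le_one_iff_subsingleton]
    exact Set.subsingleton_coe _ |>.2 hsub
  have h2 : (minpoly ℚ x).natDegree = 1 :=
    le_antisymm h1 (minpoly.natDegree_pos hint)
  have h3 := minpoly.natDegree_eq_one_iff.1 h2
  obtain ⟨q, hq⟩ := h3
  exact ⟨q, hq⟩

namespace Datum

variable (D : Datum n)

/-- the embedding `σ` as an additive map -/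
def emb : D.K →+ (Fin n → ℝ) where
  toFun z j := D.σ j z
  map_zero' := by ext j; simp
  map_add' x y := by ext j; simp

theorem idealLattice_eq_map (I : AddSubgroup D.K) :
    D.idealLattice I = AddSubgroup.toIntSubmodule (I.map D.emb) := by
  have : ((fun (z : D.K) (j : Fin n) => D.σ j z) '' (I : Set D.K)) =
      (AddSubgroup.toIntSubmodule (I.map D.emb) : Set (Fin n → ℝ)) := rfl
  unfold idealLattice
  rw [this, Submodule.span_eq]

theorem mem_idealLattice_iff (I : AddSubgroup D.K)
    (v : Fin n → ℝ) : v ∈ D.idealLattice I ↔ ∃ z ∈ I, D.emb z = v := by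
  rw [idealLattice_eq_map]
  rfl

theorem coe_idealLattice (I : AddSubgroup D.K) :
    (D.idealLattice I : Set (Fin n → ℝ)) = D.emb '' (I : Set D.K) := by
  rw [idealLattice_eq_map]
  rfl

/-- The lattices in the packet of `O` are stable under multiplication by `σ(x)`, `x ∈ O`. -/
theorem packet_subset_Ystab {x : D.K} (hx : x ∈ D.O) {Q : Set (X n)} (hQ : Q ∈ D.packet) :
    Q ⊆ Ystab fun j => D.σ j x := by
  obtain ⟨I, w, y, hI, hw, ⟨g, rfl, hg⟩, rfl⟩ := hQ
  rintro _ ⟨u, rfl⟩
  simp only [X.right_mk]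
  refine ⟨g * diagA u, rfl, fun v hv => ?_⟩
  rw [rowLattice_mul_diag (a := diagA u) rfl] at hv ⊢
  obtain ⟨v', hv', rfl⟩ := hv
  refine ⟨v' * fun j => D.σ j x, ?_, by ring⟩
  rw [← SetLike.mem_coe, hg] at hv' ⊢
  obtain ⟨v'', hv'', rfl⟩ := hv'
  rw [SetLike.mem_coe, D.mem_idealLattice_iff] at hv''
  obtain ⟨z, hz, rfl⟩ := hv''
  refine ⟨D.emb (x * z), ?_, ?_⟩
  · rw [SetLike.mem_coe, D.mem_idealLattice_iff]
    exact ⟨x * z, hI.1.2.1 x hx z hz, rfl⟩
  · funext j
    simp only [emb, AddMonoidHom.coe_mk, ZeroHom.coe_mk, map_mul, Pi.mul_apply]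
    ring

theorem orbitMeasure_compl (Q : Set (X n)) : orbitMeasure Q Qᶜ = 0 := by
  unfold orbitMeasure
  split_ifs with h
  · exact h.choose_spec.2.1
  · rfl

/-- The packet measure gives mass zero to every set which misses all the orbits. -/
theorem packetMeasure_eq_zero {U : Set (X n)} (hU : ∀ Q ∈ D.packet, Disjoint Q U) :
    D.packetMeasure U = 0 := by
  unfold packetMeasure
  rw [Measure.smul_apply]
  have : (∑ᶠ Q ∈ D.packet, ENNReal.ofReal (orbitVol Q) • orbitMeasure Q) U = 0 := by
    refine finsum_mem_induction (fun μ : Measure (X n) => μ U = 0) (by simp) ?_ ?_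
    · intro μ ν hμ hν
      simp [hμ, hν]
    · intro Q hQ
      rw [Measure.smul_apply]
      have h1 : orbitMeasure Q U = 0 :=
        measure_mono_null (fun x hx hxQ => Set.disjoint_left.1 (hU Q hQ) hxQ hx)
          (orbitMeasure_compl Q)
      simp [h1]
  rw [this]
  simp

end Datum

/-- **Obstruction theorem.** For every `B` there is a nonempty open subset `U` of `X n` such that
`μ(U) = 0` for the packet measure `μ` of every order (in any totally real field of degree `n`)
that contains an element `x ∉ ℚ` all of whose conjugates are at most `B` in absolute value. -/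
theorem exists_open_null (n : ℕ) (B : ℝ) :
    ∃ U : Set (X n), IsOpen U ∧ U.Nonempty ∧ ∀ D : Datum n, ∀ x ∈ D.O,
      x ∉ Set.range (algebraMap ℚ D.K) → (∀ j, |D.σ j x| ≤ B) → D.packetMeasure U = 0 := by
  set T : Set (Fin n → ℝ) := {d : Fin n → ℝ | (∃ i j, d i ≠ d j) ∧
    ∃ (D : Datum n) (x : D.K), IsIntegral ℤ x ∧ (∀ j, |D.σ j x| ≤ B) ∧
      d = fun j => D.σ j x} with hTdef
  have hT : T.Finite := (finite_conj n B).subset fun d hd => hd.2
  obtain ⟨hU, hne⟩ := exists_open_avoiding hT fun d hd => hd.1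
  refine ⟨_, hU, hne, fun D x hxO hxQ hxB => D.packetMeasure_eq_zero fun Q hQ => ?_⟩
  have hd : (fun j => D.σ j x) ∈ T := by
    refine ⟨?_, D, x, D.integral x hxO, hxB, rfl⟩
    by_contra hcon
    push Not at hcon
    exact hxQ (mem_range_of_const D x hcon)
  rw [Set.disjoint_left]
  intro y hyQ hyU
  rw [Set.mem_iInter₂] at hyU
  exact hyU _ hd (D.packet_subset_Ystab hxO hQ hyQ)

end Vale.Agent.P007
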