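import Vale.Agent.P007.Points2

open MeasureTheory Filter Topology Module

namespace Vale.Agent.P007

variable {n : ℕ}

theorem mem_orbitPeriods_iff {x : X n} {u : Fin (n - 1) → ℝ} :
    u ∈ orbitPeriods (orbitA x) ↔ X.right (diagA u) x = x := by
  rw [mem_orbitPeriods]
  constructor
  · intro h
    refine h x ⟨0, ?_⟩
    change X.right (diagA 0) x = x
    rw [diagA_zero, X.right_one]
  · rintro h _ ⟨v, rfl⟩
    change X.right (diagA u) (X.right (diagA v) x) = X.right (diagA v) x
    rw [← X.right_mul, ← diagA_add, add_comm, diagA_add, X.right_mul, h]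

theorem ext_apply_lt {u : Fin (n - 1) → ℝ} {j : Fin n} (h : (j : ℕ) < n - 1) :
    ext u j = u ⟨j, h⟩ := by
  simp [ext, h]

theorem ext_injective : Function.Injective (ext (n := n)) := by
  intro u v h
  funext i
  have hi : (i : ℕ) < n := by omega
  have := congrFun h ⟨i, hi⟩
  rwa [ext_apply_lt (by simp), ext_apply_lt (by simp)] at this

theorem continuous_ext : Continuous (ext (n := n)) := by
  refine continuous_pi fun j => ?_
  unfold ext
  split_ifs with h
  · exact continuous_apply _
  · exact (continuous_finsetSum _ fun i _ => continuous_apply i).neg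

theorem continuous_diagA : Continuous (diagA (n := n)) := by
  refine Continuous.subtype_mk ?_ _
  refine Continuous.matrix_diagonal ?_
  exact continuous_pi fun j => Real.continuous_exp.comp ((continuous_apply j).comp continuous_ext)

theorem diagA_injective : Function.Injective (diagA (n := n)) := by
  intro u v h
  apply ext_injective
  funext j
  have h1 := congrArg (fun g : SLn n => (g : Matrix (Fin n) (Fin n) ℝ) j j) h
  simp only [diagA, Matrix.diagonal_apply_eq] at h1
  exact Real.exp_injective h1

/-- The period group is discrete. -/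
theorem discrete_periods (x : X n) : DiscreteTopology (orbitPeriods (orbitA x)) := by
  obtain ⟨g, rfl⟩ := mk_surjective x
  have h1 : ∀ u : orbitPeriods (orbitA (X.mk g)), ∃ γ : Matrix.SpecialLinearGroup (Fin n) ℤ,
      Matrix.SpecialLinearGroup.map (Int.castRingHom ℝ) γ * g = g * diagA (u : Fin (n - 1) → ℝ) := by
    intro u
    have h := mem_orbitPeriods_iff.1 u.2
    rw [right_mk] at h
    exact mk_eq_mk_iff.1 h
  choose γ hγ using h1
  have hγ' : ∀ u, Matrix.SpecialLinearGroup.map (Int.castRingHom ℝ) (γ u) =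
      g * diagA (u : Fin (n - 1) → ℝ) * g⁻¹ := by
    intro u
    rw [← hγ u, mul_inv_cancel_right]
  have hinj : Function.Injective γ := by
    intro u v huv
    apply Subtype.ext
    apply diagA_injective
    have h2 := hγ' u
    rw [huv, hγ' v] at h2
    exact (mul_left_cancel (mul_right_cancel h2)).symm
  have hcont : Continuous γ := by
    rw [isClosedEmbedding_intMap.isEmbedding.continuous_iff]
    have : (Matrix.SpecialLinearGroup.map (Int.castRingHom ℝ)) ∘ γ =
        fun u : orbitPeriods (orbitA (X.mk g)) =>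
          g * diagA (u : Fin (n - 1) → ℝ) * g⁻¹ := by
      funext u
      exact hγ' u
    rw [this]
    exact (continuous_const.mul (continuous_diagA.comp continuous_subtype_val)).mul continuous_const
  exact DiscreteTopology.of_continuous_injective hcont hinj

namespace Datum

variable (D : Datum n)

/-- A totally positive unit of `O` gives a period. -/
theorem unit_period {I : D.FI} {w : Fin n → ℝ}
    {x : X n} (hx : IsPointOf (D.latticeSet I w) x) {ε : D.K} (h1 : ε ∈ D.O) (h2 : ε⁻¹ ∈ D.O)
    (h0 : ε ≠ 0) {u : Fin (n - 1) → ℝ} (hu : ∀ j, D.σ j ε = Real.exp (ext u j)) :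
    X.right (diagA u) x = x := by
  have h3 := isPointOf_right hx (a := diagA u) (α := fun j => Real.exp (ext u j)) rfl
  refine isPointOf_unique h3 ?_
  convert! hx using 1
  rw [D.latticeSet_eq, D.coe_idealLattice]
  have key : ∀ y : D.K, y ∈ D.zmod I ↔ ε * y ∈ D.zmod I := by
    intro y
    refine ⟨fun hy => D.zmod_smul h1 hy, fun hy => ?_⟩
    have := D.zmod_smul h2 hy
    rwa [inv_mul_cancel_left₀ h0] at this
  ext v
  constructor
  · rintro ⟨_, ⟨_, ⟨z, hz, rfl⟩, rfl⟩, rfl⟩
    refine ⟨D.emb (ε * z), ⟨ε * z, (key z).1 hz, rfl⟩, ?_⟩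
    funext j
    simp only [emb, AddMonoidHom.coe_mk, ZeroHom.coe_mk, map_mul, Pi.mul_apply, hu]
    ring
  · rintro ⟨_, ⟨z, hz, rfl⟩, rfl⟩
    refine ⟨_, ⟨D.emb (ε⁻¹ * z), ⟨ε⁻¹ * z, ?_, rfl⟩, rfl⟩, ?_⟩
    · exact (key _).2 (by rw [mul_inv_cancel_left₀ h0]; exact hz)
    · funext j
      simp only [emb, AddMonoidHom.coe_mk, ZeroHom.coe_mk, map_mul, Pi.mul_apply, map_inv₀, hu]
      have := Real.exp_ne_zero (ext u j)
      field_simp

end Datum

end Vale.Agent.P007
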