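import Vale.Agent.P007.Obstruction

open MeasureTheory Filter Topology Module

namespace Vale.Agent.P007

variable {n : ℕ}

namespace Datum

variable (D : Datum n)

/-- the matrix `(σ_j(b_i))` -/
def embMat (b : Fin n → D.K) : Matrix (Fin n) (Fin n) ℝ :=
  Matrix.of fun i j => D.σ j (b i)

include D in
theorem n_pos : 0 < n := by
  have h : 0 < finrank ℚ D.K := finrank_pos
  rwa [D.finrank_eq] at h

theorem embMat_det_ne_zero (b : Basis (Fin n) ℚ D.K) : (D.embMat b).det ≠ 0 := by
  intro hdet
  obtain ⟨v, hv0, hv⟩ := Matrix.exists_mulVec_eq_zero_iff.2 hdet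
  apply hv0
  have h1 : ∀ x : D.K, ∑ j, v j * D.σ j x = 0 := by
    intro x
    have h2 : ∀ i, ∑ j, v j * D.σ j (b i) = 0 := by
      intro i
      have := congrFun hv i
      simp only [Matrix.mulVec, dotProduct, embMat, Matrix.of_apply, Pi.zero_apply] at this
      rw [← this]
      exact Finset.sum_congr rfl fun j _ => mul_comm _ _
    rw [← b.sum_repr x]
    simp only [map_sum, Finset.mul_sum]
    rw [Finset.sum_comm]
    refine Finset.sum_eq_zero fun i _ => ?_
    have h3 : ∀ j, D.σ j (b.repr x i • b i) = (b.repr x i : ℝ) * D.σ j (b i) := by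
      intro j
      rw [Algebra.smul_def, map_mul]
      congr 1
      simp
    simp only [h3]
    have : ∑ j, v j * (((b.repr x) i : ℝ) * (D.σ j) (b i)) =
        ((b.repr x) i : ℝ) * ∑ j, v j * (D.σ j) (b i) := by
      rw [Finset.mul_sum]
      exact Finset.sum_congr rfl fun j _ => by ring
    rw [this, h2, mul_zero]
  have hli := linearIndependent_monoidHom D.K ℝ
  have hinj : Function.Injective fun j : Fin n => ((D.σ j : D.K →+* ℝ) : D.K →* ℝ) := by
    intro i j hij
    apply D.σ.injective
    ext x
    exact DFunLike.congr_fun hij x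
  have hli' := hli.comp _ hinj
  rw [Fintype.linearIndependent_iff] at hli'
  funext j
  refine hli' v ?_ j
  funext x
  have := h1 x
  simpa [Finset.sum_apply, Pi.smul_apply, smul_eq_mul] using this

/-- `O` is a finitely generated abelian group -/
theorem finite_O : Module.Finite ℤ D.O := by
  have h1 : Module.Finite ℤ (NumberField.RingOfIntegers D.K) := inferInstance
  let f : D.O →ₗ[ℤ] (NumberField.RingOfIntegers D.K) :=
    { toFun := fun x => ⟨(x : D.K), D.integral x x.2⟩
      map_add' := fun x y => rfl
      map_smul' := fun a x => by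
        apply NumberField.RingOfIntegers.ext
        exact (map_zsmul (algebraMap (NumberField.RingOfIntegers D.K) D.K) a
          ⟨(x : D.K), D.integral x x.2⟩).symm }
  have hf : Function.Injective f := by
    intro x y hxy
    apply Subtype.ext
    exact congrArg (fun z : NumberField.RingOfIntegers D.K => (z : D.K)) hxy
  exact Module.Finite.of_injective f hf

/-- the fractional ideals of `O` -/
abbrev FI : Type := {I : AddSubgroup D.K // IsFractionalIdeal D.O I}

/-- the ideal as a `ℤ`-submodule of `K` -/
def zmod (I : D.FI) : Submodule ℤ D.K := AddSubgroup.toIntSubmodule I.1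

theorem zmod_smul {I : D.FI} {x y : D.K} (hx : x ∈ D.O)
    (hy : y ∈ D.zmod I) : x * y ∈ D.zmod I :=
  I.2.2.1 x hx y hy

theorem exists_ne_zero (I : D.FI) :
    ∃ x ∈ D.zmod I, x ≠ 0 := by
  by_contra hcon
  push Not at hcon
  apply I.2.1
  rw [eq_bot_iff]
  intro x hx
  exact AddSubgroup.mem_bot.2 (hcon x hx)

theorem zmod_span (I : D.FI) :
    Submodule.span ℚ (D.zmod I : Set D.K) = ⊤ := by
  obtain ⟨x, hx, hx0⟩ := D.exists_ne_zero I
  rw [eq_top_iff]
  intro y _
  have h1 : ∀ z ∈ Submodule.span ℚ (D.O : Set D.K), z * x ∈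
      Submodule.span ℚ (D.zmod I : Set D.K) := by
    intro z hz
    induction hz using Submodule.span_induction with
    | mem z hz => exact Submodule.subset_span (D.zmod_smul hz hx)
    | zero => rw [zero_mul]; exact Submodule.zero_mem _
    | add a b _ _ ha hb => rw [add_mul]; exact Submodule.add_mem _ ha hb
    | smul q a _ ha => rw [smul_mul_assoc]; exact Submodule.smul_mem _ q ha
  have h2 := h1 (y * x⁻¹) (by rw [D.full]; trivial)
  rwa [mul_assoc, inv_mul_cancel₀ hx0, mul_one] at h2

/-- a `ℤ`-basis of `I`, which is a `ℚ`-basis of `K` -/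
theorem exists_basis (I : D.FI) :
    ∃ b : Basis (Fin n) ℚ D.K, D.zmod I = Submodule.span ℤ (Set.range b) := by
  have hO := D.finite_O
  have hfin : Module.Finite ℤ (D.zmod I) := by
    obtain ⟨d, hdO, hd0, hd⟩ := I.2.2.2
    let f : D.zmod I →ₗ[ℤ] D.O :=
      { toFun := fun x => ⟨d * x, hd x x.2⟩
        map_add' := fun x y => Subtype.ext (mul_add d (x : D.K) y)
        map_smul' := fun a x => Subtype.ext (by
          change d * (a • (x : D.K)) = a • (d * (x : D.K))
          rw [mul_smul_comm]) }
    refine Module.Finite.of_injective f ?_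
    intro x y hxy
    apply Subtype.ext
    have := congrArg (fun z : D.O => (z : D.K)) hxy
    exact mul_left_cancel₀ hd0 this
  have hfree : Module.Free ℤ (D.zmod I) := inferInstance
  let c := Module.Free.chooseBasis ℤ (D.zmod I)
  have hli : LinearIndependent ℤ (fun i => (c i : D.K)) :=
    c.linearIndependent.map' (D.zmod I).subtype (Submodule.ker_subtype _)
  have hliQ : LinearIndependent ℚ (fun i => (c i : D.K)) :=
    (LinearIndependent.iff_fractionRing ℤ ℚ).1 hli
  have hspanZ : Submodule.span ℤ (Set.range fun i => (c i : D.K)) = D.zmod I := by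
    have h1 := c.span_eq
    have h2 := congrArg (Submodule.map (D.zmod I).subtype) h1
    rw [Submodule.map_span, Submodule.map_subtype_top, ← Set.range_comp] at h2
    exact h2
  have hspanQ : ⊤ ≤ Submodule.span ℚ (Set.range fun i => (c i : D.K)) := by
    rw [← D.zmod_span I, Submodule.span_le]
    intro y hy
    have hy' : y ∈ Submodule.span ℤ (Set.range fun i => (c i : D.K)) := by
      rw [hspanZ]; exact hy
    exact Submodule.span_le_restrictScalars ℤ ℚ _ hy'
  let b₀ : Basis _ ℚ D.K := Basis.mk hliQ hspanQ
  have hcard : Fintype.card (Module.Free.ChooseBasisIndex ℤ (D.zmod I)) = n := by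
    rw [← finrank_eq_card_basis b₀, D.finrank_eq]
  let e := Fintype.equivFinOfCardEq hcard
  refine ⟨b₀.reindex e, hspanZ.symm.trans ?_⟩
  rw [Basis.range_reindex]
  congr 2
  funext i
  simp [b₀]

end Datum

end Vale.Agent.P007
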