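import Vale.Agent.P007.Points

open MeasureTheory Filter Topology Module

namespace Vale.Agent.P007

variable {n : ℕ}

/-- the real basis of `ℝ^n` given by the rows of an invertible matrix -/
noncomputable def rowBasis (M : Matrix (Fin n) (Fin n) ℝ) (hM : M.det ≠ 0) :
    Basis (Fin n) ℝ (Fin n → ℝ) :=
  have hli : LinearIndependent ℝ M.row := Matrix.linearIndependent_rows_of_det_ne_zero hM
  basisOfLinearIndependentOfCardEqFinrank' M.row hli (by simp)

theorem coe_rowBasis (M : Matrix (Fin n) (Fin n) ℝ) (hM : M.det ≠ 0) :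
    ⇑(rowBasis M hM) = fun i => M i := by
  funext i
  simp [rowBasis]
  rfl

theorem covolume_rows (M : Matrix (Fin n) (Fin n) ℝ) (hM : M.det ≠ 0) :
    ZLattice.covolume (Submodule.span ℤ (Set.range fun i => M i)) volume = |M.det| := by
  have h1 := ZLattice.covolume_eq_det (Submodule.span ℤ (Set.range (rowBasis M hM)))
    ((rowBasis M hM).restrictScalars ℤ)
  have h2 : (Matrix.of (Subtype.val ∘ ⇑(Basis.restrictScalars ℤ (rowBasis M hM)))) = M := by
    ext i j
    simp [coe_rowBasis]
  rw [h2] at h1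
  rw [← h1, coe_rowBasis]

/-- A point of `X n` for the row lattice of a matrix of determinant `±1`. -/
theorem exists_point (M : Matrix (Fin n) (Fin n) ℝ) (hn : 0 < n) (hM : |M.det| = 1) :
    ∃ g : SLn n, rowLattice g = Submodule.span ℤ (Set.range fun i => M i) := by
  rcases (abs_eq zero_le_one).1 hM with h | h
  · exact ⟨⟨M, h⟩, rfl⟩
  · let i₀ : Fin n := ⟨0, hn⟩
    have hdet : (M.updateRow i₀ ((-1 : ℝ) • (M i₀))).det = 1 := by
      rw [Matrix.det_updateRow_smul, Matrix.updateRow_eq_self, h]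
      norm_num
    refine ⟨⟨M.updateRow i₀ ((-1 : ℝ) • (M i₀)), hdet⟩, ?_⟩
    apply le_antisymm
    · refine Submodule.span_le.2 ?_
      rintro _ ⟨i, rfl⟩
      change (M.updateRow i₀ ((-1 : ℝ) • (M i₀))) i ∈ Submodule.span ℤ (Set.range fun i => M i)
      by_cases hi : i = i₀
      · rw [hi, Matrix.updateRow_self, neg_smul, one_smul]
        exact Submodule.neg_mem _ (Submodule.subset_span ⟨_, rfl⟩)
      · rw [Matrix.updateRow_ne hi]
        exact Submodule.subset_span ⟨i, rfl⟩
    · rw [Submodule.span_le]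
      rintro _ ⟨i, rfl⟩
      by_cases hi : i = i₀
      · have h1 : M i = -((M.updateRow i₀ ((-1 : ℝ) • (M i₀))) i) := by
          rw [hi, Matrix.updateRow_self]; simp
        simp only [SetLike.mem_coe]
        rw [h1]
        exact Submodule.neg_mem _ (Submodule.subset_span ⟨i, rfl⟩)
      · have h1 : M i = ((M.updateRow i₀ ((-1 : ℝ) • (M i₀))) i) := by
          rw [Matrix.updateRow_ne hi]
        simp only [SetLike.mem_coe]
        rw [h1]
        exact Submodule.subset_span ⟨i, rfl⟩

/-- multiplication of a lattice by a diagonal matrix -/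
theorem span_rows_mul (M : Matrix (Fin n) (Fin n) ℝ) (α : Fin n → ℝ) :
    (Submodule.span ℤ (Set.range fun i => (M * Matrix.diagonal α) i) : Set (Fin n → ℝ)) =
      (fun v : Fin n → ℝ => v * α) '' (Submodule.span ℤ (Set.range fun i => M i)) := by
  let f : (Fin n → ℝ) →ₗ[ℤ] (Fin n → ℝ) :=
    { toFun := fun v => v * α
      map_add' := fun x y => by rw [add_mul]
      map_smul' := fun a x => by rw [RingHom.id_apply, smul_mul_assoc] }
  have h1 : (fun v : Fin n → ℝ => v * α) = f := rfl
  rw [h1, ← Submodule.map_coe, Submodule.map_span, ← Set.range_comp]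
  congr 3
  funext i
  funext j
  simp [f, Matrix.mul_diagonal]

namespace Datum

variable (D : Datum n)

theorem idealLattice_eq {I : D.FI}
    {b : Basis (Fin n) ℚ D.K} (hb : D.zmod I = Submodule.span ℤ (Set.range b)) :
    D.idealLattice I = Submodule.span ℤ (Set.range fun i => D.embMat b i) := by
  have h1 : D.idealLattice I = (D.zmod I).map D.emb.toIntLinearMap := D.idealLattice_eq_map I
  rw [h1, hb, Submodule.map_span, ← Set.range_comp]
  rfl

theorem covolume_idealLattice {I : D.FI}
    {b : Basis (Fin n) ℚ D.K} (hb : D.zmod I = Submodule.span ℤ (Set.range b)) :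
    ZLattice.covolume (D.idealLattice I) volume = |(D.embMat b).det| := by
  rw [D.idealLattice_eq hb, covolume_rows _ (D.embMat_det_ne_zero b)]

/-- the scaling factor -/
noncomputable def scal (I : D.FI) : ℝ :=
  (ZLattice.covolume (D.idealLattice I) volume) ^ (-(1 : ℝ) / n)

theorem covolume_pos (I : D.FI) :
    0 < ZLattice.covolume (D.idealLattice I) volume := by
  obtain ⟨b, hb⟩ := D.exists_basis I
  rw [D.covolume_idealLattice hb]
  exact abs_pos.2 (D.embMat_det_ne_zero b)

theorem scal_pos (I : D.FI) : 0 < D.scal I :=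
  Real.rpow_pos_of_pos (D.covolume_pos I) _

theorem scal_pow (I : D.FI) :
    D.scal I ^ n * ZLattice.covolume (D.idealLattice I) volume = 1 := by
  have hn : (n : ℝ) ≠ 0 := by exact_mod_cast D.n_pos.ne'
  have hpos := D.covolume_pos I
  rw [scal, ← Real.rpow_natCast, ← Real.rpow_mul hpos.le, div_mul_cancel₀ _ hn,
    Real.rpow_neg_one, inv_mul_cancel₀ hpos.ne']

theorem latticeSet_eq (I : D.FI) (w : Fin n → ℝ) :
    D.latticeSet I w = (fun v : Fin n → ℝ => v * (fun j => D.scal I * w j)) ''
      (D.idealLattice I : Set (Fin n → ℝ)) := by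
  unfold latticeSet
  refine Set.image_congr fun v _ => ?_
  funext j
  simp only [Pi.mul_apply, scal]
  ring

theorem exists_isPointOf (I : D.FI) {w : Fin n → ℝ}
    (hw : ∀ j, w j = 1 ∨ w j = -1) : ∃ x : X n, IsPointOf (D.latticeSet I w) x := by
  obtain ⟨b, hb⟩ := D.exists_basis I
  have hdet : |(D.embMat b * Matrix.diagonal fun j => D.scal I * w j).det| = 1 := by
    rw [Matrix.det_mul, Matrix.det_diagonal, Finset.prod_mul_distrib, abs_mul, abs_mul,
      Finset.prod_const, Finset.card_univ, Fintype.card_fin, abs_pow, abs_of_pos (D.scal_pos I)]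
    have h1 : |∏ j, w j| = 1 := by
      rw [Finset.abs_prod]
      refine Finset.prod_eq_one fun j _ => ?_
      rcases hw j with h | h <;> simp [h]
    rw [h1, mul_one, mul_comm, ← D.covolume_idealLattice hb]
    exact D.scal_pow I
  obtain ⟨g, hg⟩ := exists_point _ D.n_pos hdet
  refine ⟨X.mk g, g, rfl, ?_⟩
  rw [hg, span_rows_mul, D.latticeSet_eq, D.idealLattice_eq hb]

end Datum

theorem isPointOf_unique {L : Set (Fin n → ℝ)} {x y : X n} (hx : IsPointOf L x)
    (hy : IsPointOf L y) : x = y := by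
  obtain ⟨g, rfl, hg⟩ := hx
  obtain ⟨h, rfl, hh⟩ := hy
  rw [mk_eq_mk_iff_rowLattice]
  exact SetLike.coe_injective (hg.trans hh.symm)

theorem isPointOf_right {L : Set (Fin n → ℝ)} {x : X n} (hx : IsPointOf L x)
    {a : SLn n} {α : Fin n → ℝ} (ha : (a : Matrix (Fin n) (Fin n) ℝ) = Matrix.diagonal α) :
    IsPointOf ((fun v => v * α) '' L) (X.right a x) := by
  obtain ⟨g, rfl, hg⟩ := hx
  refine ⟨g * a, rfl, ?_⟩
  ext v
  rw [SetLike.mem_coe, rowLattice_mul_diag ha, ← hg]
  constructor
  · rintro ⟨v', h1, rfl⟩; exact ⟨v', h1, rfl⟩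
  · rintro ⟨v', h1, rfl⟩; exact ⟨v', h1, rfl⟩

end Vale.Agent.P007
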