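import Vale.Agent.P007.Units

open MeasureTheory Filter Topology Module NumberField
open NumberField.Units NumberField.Units.dirichletUnitTheorem

namespace Vale.Agent.P007

variable {n : ℕ}

theorem ext_smul (c : ℝ) (u : Fin (n - 1) → ℝ) : ext (n := n) (c • u) = c • ext u := by
  funext j
  by_cases h : (j : ℕ) < n - 1
  · simp [ext, h]
  · simp only [ext, h, dif_neg, not_false_eq_true, Pi.smul_apply, smul_eq_mul,
      ← Finset.mul_sum]
    ring

namespace Datum

variable (D : Datum n)

/-- A multiple of the logarithm vector of a unit is a period. -/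
theorem exists_smul_logv_mem {I : D.FI} {w : Fin n → ℝ}
    {x : X n} (hx : IsPointOf (D.latticeSet I w) x) (η : (𝓞 D.K)ˣ) :
    ∃ k : ℕ, 0 < k ∧ (k : ℝ) • D.logv η ∈ orbitPeriods (orbitA x) := by
  obtain ⟨k, hk, h1, h2⟩ := D.exists_pow_mem η
  refine ⟨2 * k, by omega, ?_⟩
  rw [mem_orbitPeriods_iff]
  have h0 : ((η : 𝓞 D.K) : D.K) ≠ 0 := NumberField.Units.coe_ne_zero η
  refine D.unit_period hx (ε := ((η : 𝓞 D.K) : D.K) ^ (2 * k)) ?_ ?_ (pow_ne_zero _ h0) ?_
  · rw [mul_comm, pow_mul]; exact D.O.pow_mem h1 2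
  · rw [mul_comm, pow_mul, ← inv_pow]; exact D.O.pow_mem h2 2
  · intro j
    have hσ : D.σ j ((η : 𝓞 D.K) : D.K) ≠ 0 := by
      rw [Ne, map_eq_zero]; exact h0
    rw [ext_smul, Pi.smul_apply, D.ext_logv, smul_eq_mul, mul_comm ((2 * k : ℕ) : ℝ),
      Real.exp_mul, Real.exp_log (abs_pos.2 hσ), Real.rpow_natCast, map_pow, pow_mul, pow_mul,
      sq_abs]

/-- The period group spans. -/
theorem span_periods {I : D.FI} {w : Fin n → ℝ}
    {x : X n} (hx : IsPointOf (D.latticeSet I w) x) :
    Submodule.span ℝ (orbitPeriods (orbitA x) : Set (Fin (n - 1) → ℝ)) = ⊤ := by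
  classical
  let π : Fin n ≃ InfinitePlace D.K := Equiv.ofBijective _ D.place_bijective
  let Φ : (Fin (n - 1) → ℝ) →ₗ[ℝ] logSpace D.K :=
    { toFun := fun u v => ext u (π.symm v.1)
      map_add' := fun a b => by funext v; rw [ext_add]; rfl
      map_smul' := fun c a => by funext v; rw [ext_smul]; rfl }
  have hΦinj : Function.Injective Φ := by
    rw [← LinearMap.ker_eq_bot, LinearMap.ker_eq_bot']
    intro u hu
    have h1 : ∀ j, π j ≠ w₀ → ext u j = 0 := by
      intro j hj
      have := congrFun hu ⟨π j, hj⟩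
      simpa [Φ] using this
    have h2 : ext u (π.symm w₀) = 0 := by
      have h3 := sum_ext u
      rw [Finset.sum_eq_single (π.symm w₀)] at h3
      · exact h3
      · intro j _ hj
        exact h1 j fun h => hj (by rw [← h]; simp)
      · simp
    have h3 : ext u = ext (0 : Fin (n - 1) → ℝ) := by
      rw [ext_zero]
      funext j
      by_cases hj : π j = w₀
      · rw [← hj] at h2
        simpa using h2
      · exact h1 j hj
    exact ext_injective h3
  set S := Submodule.span ℝ (orbitPeriods (orbitA x) : Set (Fin (n - 1) → ℝ)) with hS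
  have hlog : ∀ η : (𝓞 D.K)ˣ, logEmbedding D.K (Additive.ofMul η) = Φ (D.logv η) := by
    intro η
    funext v
    rw [logEmbedding_component]
    change _ = ext (D.logv η) (π.symm v.1)
    rw [D.ext_logv]
    have h1 : v.1 = D.place (π.symm v.1) := (π.apply_symm_apply v.1).symm
    conv_lhs => rw [h1]
    rw [D.mult_place, D.place_apply]
    simp
  have h1 : (⊤ : Submodule ℝ (logSpace D.K)) ≤ S.map Φ := by
    rw [← unitLattice_span_eq_top D.K, Submodule.span_le]
    rintro _ ⟨η, -, rfl⟩
    obtain ⟨k, hk, hk'⟩ := D.exists_smul_logv_mem hx η.toMul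
    have h2 : D.logv η.toMul ∈ S := by
      have h3 : D.logv η.toMul = (k : ℝ)⁻¹ • ((k : ℝ) • D.logv η.toMul) := by
        rw [inv_smul_smul₀]
        exact_mod_cast hk.ne'
      rw [h3]
      exact S.smul_mem _ (Submodule.subset_span hk')
    exact ⟨_, h2, (hlog η.toMul).symm⟩
  rw [eq_top_iff]
  intro u _
  obtain ⟨s, hs, hsu⟩ := h1 (show Φ u ∈ ⊤ from trivial)
  rwa [← hΦinj hsu]

theorem isZLattice_periods {I : D.FI} {w : Fin n → ℝ}
    {x : X n} (hx : IsPointOf (D.latticeSet I w) x) [DiscreteTopology (orbitPeriods (orbitA x))] :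
    IsZLattice ℝ (orbitPeriods (orbitA x)) :=
  ⟨D.span_periods hx⟩

end Datum

open Pointwise in
/-- An orbit with a full lattice of periods carries an invariant probability measure. -/
theorem exists_orbitMeasure (x : X n) [DiscreteTopology (orbitPeriods (orbitA x))]
    [IsZLattice ℝ (orbitPeriods (orbitA x))] : ∃ ν, IsOrbitMeasure (orbitA x) ν := by
  set L := orbitPeriods (orbitA x) with hL
  let b := Free.chooseBasis ℤ L
  let F := ZSpan.fundamentalDomain (b.ofZLatticeBasis ℝ L)
  have hF : IsAddFundamentalDomain L F (volume : Measure (Fin (n - 1) → ℝ)) :=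
    ZLattice.isAddFundamentalDomain b volume
  have hF0 : volume F ≠ 0 := ZSpan.measure_fundamentalDomain_ne_zero _
  have hFtop : volume F ≠ ⊤ := (ZSpan.fundamentalDomain_isBounded _).measure_lt_top.ne
  have hFmeas : MeasurableSet F := ZSpan.fundamentalDomain_measurableSet _
  let φ : (Fin (n - 1) → ℝ) → X n := fun u => X.right (diagA u) x
  have hφcont : Continuous φ := by
    obtain ⟨g, rfl⟩ := mk_surjective x
    exact continuous_mk.comp (continuous_const.mul continuous_diagA)
  have hφ : Measurable φ := hφcont.measurable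
  refine ⟨(volume F)⁻¹ • (volume.restrict F).map φ, ?_, ?_, ?_⟩
  · constructor
    rw [Measure.smul_apply, Measure.map_apply hφ MeasurableSet.univ, Set.preimage_univ,
      Measure.restrict_apply MeasurableSet.univ, Set.univ_inter, smul_eq_mul,
      ENNReal.inv_mul_cancel hF0 hFtop]
  · have hper : ∀ u z, z ∈ L → φ (u + z) = φ u := by
      intro u z hz
      change X.right (diagA (u + z)) x = X.right (diagA u) x
      rw [add_comm, diagA_add, X.right_mul, mem_orbitPeriods_iff.1 hz]
    have hcomp : IsCompact (Set.range φ) := IsZLattice.isCompact_range_of_periodic L φ hφcont hper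
    have hQ : MeasurableSet (orbitA x) := hcomp.isClosed.measurableSet
    rw [Measure.smul_apply, Measure.map_apply hφ hQ.compl]
    have : φ ⁻¹' (orbitA x)ᶜ = ∅ := by
      ext u
      simp [orbitA, φ]
    rw [this]
    simp
  · intro v
    have hright : Measurable (X.right (diagA (n := n) v)) := (continuous_right _).measurable
    rw [Measure.map_smul, Measure.map_map hright hφ]
    congr 1
    ext B hB
    rw [Measure.map_apply (hright.comp hφ) hB, Measure.map_apply hφ hB,
      Measure.restrict_apply ((hright.comp hφ) hB), Measure.restrict_apply (hφ hB)]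
    set A := φ ⁻¹' B with hA
    have hAm : MeasurableSet A := hφ hB
    have hAinv : ∀ l : L, (fun u => l +ᵥ u) ⁻¹' A = A := by
      intro l
      ext u
      have : φ (l +ᵥ u) = φ u := by
        change X.right (diagA ((l : Fin (n - 1) → ℝ) + u)) x = X.right (diagA u) x
        rw [diagA_add, X.right_mul, mem_orbitPeriods_iff.1 l.2]
      simp only [hA, Set.mem_preimage, this]
    have i1 : MeasurableVAdd L (Fin (n - 1) → ℝ) :=
      (inferInstance : MeasurableVAdd L.toAddSubgroup (Fin (n - 1) → ℝ))
    have i2 : VAddInvariantMeasure L (Fin (n - 1) → ℝ) volume :=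
      (inferInstance : VAddInvariantMeasure L.toAddSubgroup (Fin (n - 1) → ℝ) volume)
    have hF' : IsAddFundamentalDomain L (v +ᵥ F) (volume : Measure (Fin (n - 1) → ℝ)) :=
      hF.vadd_of_comm v
    have h1 := hF.measure_set_eq hF' hAm hAinv
    rw [h1]
    have h2 : (X.right (diagA v) ∘ φ) ⁻¹' B ∩ F = (fun u => v + u) ⁻¹' (A ∩ (v +ᵥ F)) := by
      ext u
      have h3 : (X.right (diagA v) ∘ φ) u = φ (v + u) := by
        change X.right (diagA v) (X.right (diagA u) x) = X.right (diagA (v + u)) x
        rw [← X.right_mul, ← diagA_add, add_comm]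
      simp only [Set.mem_inter_iff, Set.mem_preimage, h3, hA, Set.mem_vadd_set, vadd_eq_add,
        add_right_inj, exists_eq_right]
    rw [h2, measure_preimage_add]

end Vale.Agent.P007
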