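import Vale.Agent.P007.Defs

open MeasureTheory Filter Topology Module

namespace Vale.Agent.P007

variable {n : ℕ}

/-- shorthand for `SL_n(ℝ)` -/
abbrev SLn (n : ℕ) := Matrix.SpecialLinearGroup (Fin n) ℝ

instance (n : ℕ) : BorelSpace (X n) := ⟨rfl⟩

theorem ext_zero {n : ℕ} : ext (n := n) 0 = 0 := by
  funext j
  simp [ext]

theorem ext_add {n : ℕ} (u v : Fin (n - 1) → ℝ) : ext (n := n) (u + v) = ext u + ext v := by
  funext j
  by_cases h : (j : ℕ) < n - 1
  · simp [ext, h]
  · simp only [ext, h, dif_neg, not_false_eq_true, Pi.add_apply, Finset.sum_add_distrib]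
    ring

theorem diagA_zero {n : ℕ} : diagA (n := n) 0 = 1 := by
  apply Subtype.ext
  simp [diagA, ext_zero]

theorem diagA_add {n : ℕ} (u v : Fin (n - 1) → ℝ) :
    diagA (n := n) (u + v) = diagA u * diagA v := by
  apply Subtype.ext
  rw [Matrix.SpecialLinearGroup.coe_mul]
  simp [diagA, ext_add, Real.exp_add]

theorem X.right_mk {n : ℕ} (g h : Matrix.SpecialLinearGroup (Fin n) ℝ) :
    X.right h (X.mk g) = X.mk (g * h) := rfl

theorem X.right_one {n : ℕ} (x : X n) : X.right 1 x = x := by
  induction x using Quotient.ind with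
  | _ g => exact (X.right_mk g 1).trans (by rw [mul_one]; rfl)

theorem X.right_mul {n : ℕ} (g h : Matrix.SpecialLinearGroup (Fin n) ℝ) (x : X n) :
    X.right (g * h) x = X.right h (X.right g x) := by
  induction x using Quotient.ind with
  | _ k =>
    change X.mk (k * (g * h)) = X.mk (k * g * h)
    rw [mul_assoc]

theorem isOpenQuotientMap_mk : IsOpenQuotientMap (X.mk (n := n)) :=
  MulAction.isOpenQuotientMap_quotientMk

instance locallyCompact_matrix : LocallyCompactSpace (Matrix (Fin n) (Fin n) ℝ) :=
  inferInstanceAs (LocallyCompactSpace (Fin n → Fin n → ℝ))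

instance secondCountable_matrix : SecondCountableTopology (Matrix (Fin n) (Fin n) ℝ) :=
  inferInstanceAs (SecondCountableTopology (Fin n → Fin n → ℝ))

instance : LocallyCompactSpace (SLn n) :=
  (Matrix.SpecialLinearGroup.isClosedEmbedding_val).locallyCompactSpace

instance : SecondCountableTopology (SLn n) :=
  (Matrix.SpecialLinearGroup.isClosedEmbedding_val
    (R := ℝ) (n := Fin n)).isEmbedding.secondCountableTopology

instance : LocallyCompactSpace (X n) := isOpenQuotientMap_mk.locallyCompactSpace

instance : SecondCountableTopology (X n) :=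
  (ContinuousConstSMul.secondCountableTopology :
    SecondCountableTopology (Quotient (MulAction.orbitRel (SLZ n) (SLn n))))

theorem isClosedEmbedding_intMap :
    IsClosedEmbedding (Matrix.SpecialLinearGroup.map (n := Fin n) (Int.castRingHom ℝ)) :=
  Topology.IsClosedEmbedding.specialLinearGroup_map Int.isClosedEmbedding_coe_real

instance : ProperlyDiscontinuousSMul (SLZ n) (SLn n) := by
  apply Subgroup.properlyDiscontinuousSMul_of_tendsto_cofinite
  intro s hs
  rw [mem_cocompact] at hs
  obtain ⟨K, hK, hKs⟩ := hs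
  rw [mem_map, mem_cofinite]
  -- the preimage of `K` under the closed embedding from the discrete group is compact = finite
  have h1 : IsCompact ((Matrix.SpecialLinearGroup.map (n := Fin n) (Int.castRingHom ℝ)) ⁻¹' K) :=
    isClosedEmbedding_intMap.isCompact_preimage hK
  have h2 := isCompact_iff_finite.mp h1
  have h3 := h2.image (Matrix.SpecialLinearGroup.map (n := Fin n) (Int.castRingHom ℝ))
  refine Set.Finite.of_finite_image (f := (SLZ n).subtype) (h3.subset ?_)
    (Subtype.val_injective.injOn)
  rintro _ ⟨⟨x, y, rfl⟩, hx, rfl⟩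
  refine ⟨y, ?_, rfl⟩
  by_contra hcon
  exact hx (hKs hcon)

instance : T2Space (X n) :=
  (t2Space_of_properlyDiscontinuousSMul_of_t2Space :
    T2Space (Quotient (MulAction.orbitRel (SLZ n) (SLn n))))

theorem continuous_mk : Continuous (X.mk (n := n)) := isOpenQuotientMap_mk.continuous

theorem continuous_right (h : SLn n) : Continuous (X.right h) := by
  rw [isOpenQuotientMap_mk.isQuotientMap.continuous_iff]
  exact continuous_mk.comp (continuous_mul_const h)

theorem right_mk (g h : SLn n) : X.right h (X.mk g) = X.mk (g * h) := rfl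

/-- the periods of an orbit -/
theorem mem_orbitPeriods {Q : Set (X n)} {u : Fin (n - 1) → ℝ} :
    u ∈ orbitPeriods Q ↔ ∀ x ∈ Q, X.right (diagA u) x = x := by
  constructor
  · intro hu
    unfold orbitPeriods at hu
    induction hu using Submodule.span_induction with
    | mem u hu => exact hu
    | zero => intro x _; rw [diagA_zero, X.right_one]
    | add a b _ _ ha hb =>
      intro x hx
      rw [diagA_add, X.right_mul, ha x hx, hb x hx]
    | smul c a _ ha =>
      intro x hx
      have hneg : X.right (diagA (-a)) x = x := by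
        conv_lhs => rw [← ha x hx]
        rw [← X.right_mul, ← diagA_add, add_neg_cancel, diagA_zero, X.right_one]
      have hnat : ∀ k : ℕ, ∀ b : Fin (n - 1) → ℝ, X.right (diagA b) x = x →
          X.right (diagA ((k : ℤ) • b)) x = x := by
        intro k b hb
        induction k with
        | zero => rw [Nat.cast_zero, zero_smul, diagA_zero, X.right_one]
        | succ k ih =>
          rw [Nat.cast_succ, add_smul, one_smul, diagA_add, X.right_mul, ih, hb]
      rcases Int.eq_nat_or_neg c with ⟨k, rfl | rfl⟩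
      · exact hnat k a (ha x hx)
      · have := hnat k (-a) hneg
        rwa [smul_neg, ← neg_smul] at this
  · intro h
    exact Submodule.subset_span h

theorem mk_surjective : Function.Surjective (X.mk (n := n)) :=
  isOpenQuotientMap_mk.surjective

/-- two matrices define the same point iff they differ by an integer matrix -/
theorem mk_eq_mk_iff {g h : SLn n} :
    X.mk g = X.mk h ↔ ∃ γ : Matrix.SpecialLinearGroup (Fin n) ℤ,
      Matrix.SpecialLinearGroup.map (Int.castRingHom ℝ) γ * h = g := by
  constructor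
  · intro e
    obtain ⟨⟨_, γ, rfl⟩, hγ⟩ := Quotient.exact e
    exact ⟨γ, hγ⟩
  · rintro ⟨γ, rfl⟩
    exact Quotient.sound ⟨⟨_, γ, rfl⟩, rfl⟩

theorem right_homeo_surj (h : SLn n) : Function.Surjective (X.right h) := by
  intro x
  exact ⟨X.right h⁻¹ x, by rw [← X.right_mul, inv_mul_cancel, X.right_one]⟩

theorem exists_right_eq (x y : X n) : ∃ h : SLn n, X.right h x = y := by
  obtain ⟨g, rfl⟩ := mk_surjective x
  obtain ⟨k, rfl⟩ := mk_surjective y
  exact ⟨g⁻¹ * k, by rw [right_mk, mul_inv_cancel_left]⟩

/-- a nonempty open set has positive measure for the invariant probability measure -/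
theorem IsHaarProb.measure_pos {m : Measure (X n)} (hm : IsHaarProb m) {U : Set (X n)}
    (hU : IsOpen U) (hne : U.Nonempty) : 0 < m U := by
  by_contra hcon
  have h0 : m U = 0 := by simpa using hcon
  obtain ⟨x₀, hx₀⟩ := hne
  have hprob := hm.1
  have h1 : ∀ h : SLn n, m ((X.right h) ⁻¹' U) = 0 := by
    intro h
    rw [← Measure.map_apply (continuous_right h).measurable hU.measurableSet, hm.2 h, h0]
  have h2 : ∀ x : X n, ∃ h : SLn n, x ∈ (X.right h) ⁻¹' U := by
    intro x
    obtain ⟨h, hh⟩ := exists_right_eq x x₀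
    exact ⟨h, by simpa [hh] using hx₀⟩
  choose φ hφ using h2
  obtain ⟨t, htc, ht⟩ := TopologicalSpace.countable_cover_nhds
    (f := fun x => (X.right (φ x)) ⁻¹' U)
    (fun x => ((hU.preimage (continuous_right (φ x))).mem_nhds (hφ x)))
  have h3 : m Set.univ = 0 := by
    rw [← ht]
    exact (measure_biUnion_null_iff htc).2 fun x _ => h1 (φ x)
  rw [measure_univ] at h3
  exact one_ne_zero h3

/-- a continuous compactly supported nonnegative test function supported in `U`, with positive
`m`-integral -/
theorem exists_test_function {m : Measure (X n)} (hm : IsHaarProb m)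
    {U : Set (X n)} (hU : IsOpen U) (hne : U.Nonempty) :
    ∃ f : X n → ℝ, Continuous f ∧ HasCompactSupport f ∧ (∀ x, 0 ≤ f x) ∧ (∀ x ∉ U, f x = 0) ∧
      0 < ∫ x, f x ∂m := by
  have hprob := hm.1
  obtain ⟨x₀, hx₀⟩ := hne
  obtain ⟨f, hf1, hf0, hfc, hf01⟩ := exists_continuous_one_zero_of_isCompact
    (isCompact_singleton (x := x₀)) hU.isClosed_compl (by simpa using hx₀)
  refine ⟨f, f.continuous, hfc, fun x => (hf01 x).1, fun x hx => hf0 hx, ?_⟩
  rw [integral_pos_iff_support_of_nonneg (fun x => (hf01 x).1)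
    (f.continuous.integrable_of_hasCompactSupport hfc)]
  refine hm.measure_pos f.continuous.isOpen_support ⟨x₀, ?_⟩
  have : f x₀ = 1 := hf1 (Set.mem_singleton x₀)
  simp [Function.mem_support, this]

theorem integral_eq_zero_of_null {μ : Measure (X n)} {U : Set (X n)} (hμ : μ U = 0)
    {f : X n → ℝ} (hf : ∀ x ∉ U, f x = 0) : ∫ x, f x ∂μ = 0 := by
  apply integral_eq_zero_of_ae
  have : ∀ᵐ x ∂μ, x ∉ U := by
    rw [ae_iff]
    simpa using hμ
  filter_upwards [this] with x hx
  exact hf x hx

/-- the basic non-convergence criterion -/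
theorem not_tendsto_of_open {m : Measure (X n)} (hm : IsHaarProb m) {μ : ℕ → Measure (X n)}
    {U : Set (X n)} (hU : IsOpen U) (hne : U.Nonempty) (h : ∃ᶠ i in atTop, μ i U = 0) :
    ∃ f : X n → ℝ, Continuous f ∧ HasCompactSupport f ∧
      ¬ Tendsto (fun i => ∫ x, f x ∂(μ i)) atTop (𝓝 (∫ x, f x ∂m)) := by
  obtain ⟨f, hf1, hf2, -, hf3, hf4⟩ := exists_test_function hm hU hne
  refine ⟨f, hf1, hf2, fun hcon => ?_⟩
  have h1 := hcon.eventually (lt_mem_nhds hf4)
  obtain ⟨i, hi1, hi2⟩ := (h.and_eventually h1).exists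
  rw [integral_eq_zero_of_null hi1 hf3] at hi2
  exact lt_irrefl _ hi2

theorem not_convergesWeakly_of_open {m : Measure (X n)} (hm : IsHaarProb m)
    {μ : ℕ → Measure (X n)} {U : Set (X n)} (hU : IsOpen U) (hne : U.Nonempty)
    (h : ∃ᶠ i in atTop, μ i U = 0) : ¬ ConvergesWeakly μ m := by
  intro hcon
  obtain ⟨f, hf1, hf2, hf3⟩ := not_tendsto_of_open hm hU hne h
  exact hf3 (hcon.1 f hf1 hf2)

end Vale.Agent.P007
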