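import Vale.Agent.P007.Periods

open MeasureTheory Filter Topology Module NumberField
open NumberField.Units NumberField.Units.dirichletUnitTheorem

namespace Vale.Agent.P007

variable {n : ℕ}

namespace Datum

variable (D : Datum n)

theorem exists_int_mul_mem (y : D.K) : ∃ d : ℤ, d ≠ 0 ∧ (d : D.K) * y ∈ D.O := by
  have hy : y ∈ Submodule.span ℚ (D.O : Set D.K) := by rw [D.full]; trivial
  induction hy using Submodule.span_induction with
  | mem z hz => exact ⟨1, one_ne_zero, by simpa using hz⟩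
  | zero => exact ⟨1, one_ne_zero, by simp⟩
  | add a b _ _ ha hb =>
    obtain ⟨d, hd, hd'⟩ := ha
    obtain ⟨e, he, he'⟩ := hb
    refine ⟨d * e, mul_ne_zero hd he, ?_⟩
    have : ((d * e : ℤ) : D.K) * (a + b) = (e : D.K) * ((d : D.K) * a) +
        (d : D.K) * ((e : D.K) * b) := by push_cast; ring
    rw [this]
    exact D.O.add_mem (D.O.mul_mem (intCast_mem _ _) hd') (D.O.mul_mem (intCast_mem _ _) he')
  | smul q a _ ha =>
    obtain ⟨d, hd, hd'⟩ := ha
    refine ⟨d * q.den, mul_ne_zero hd (by exact_mod_cast q.den_ne_zero), ?_⟩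
    have : ((d * q.den : ℤ) : D.K) * (q • a) = (q.num : D.K) * ((d : D.K) * a) := by
      rw [Algebra.smul_def, eq_ratCast]
      have h1 : ((q.den : ℤ) : D.K) * (q : D.K) = (q.num : D.K) := by
        have h2 : ((q.den : ℤ) : ℚ) * q = (q.num : ℚ) := by
          rw [mul_comm]; exact_mod_cast Rat.mul_den_eq_num q
        exact_mod_cast congrArg (fun r : ℚ => (r : D.K)) h2
      push_cast at h1 ⊢
      rw [← h1]
      ring
    rw [this]
    exact D.O.mul_mem (intCast_mem _ _) hd'

/-- A nonzero integer multiplies the maximal order into `O`. -/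
theorem exists_conductor : ∃ m : ℤ, m ≠ 0 ∧ ∀ y : 𝓞 D.K, (m : D.K) * (y : D.K) ∈ D.O := by
  classical
  let β' := RingOfIntegers.basis D.K
  choose d hd hd' using fun i => D.exists_int_mul_mem ((β' i : 𝓞 D.K) : D.K)
  refine ⟨∏ i, d i, Finset.prod_ne_zero_iff.2 fun i _ => hd i, fun y => ?_⟩
  have h1 := congrArg (algebraMap (𝓞 D.K) D.K) (β'.sum_repr y)
  rw [map_sum] at h1
  change ((∏ i, d i : ℤ) : D.K) * algebraMap (𝓞 D.K) D.K y ∈ D.O
  rw [← h1, Finset.mul_sum]
  refine D.O.sum_mem fun i _ => ?_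
  rw [map_zsmul, zsmul_eq_mul, ← Finset.mul_prod_erase Finset.univ d (Finset.mem_univ i)]
  have : ((d i * ∏ x ∈ Finset.univ.erase i, d x : ℤ) : D.K) *
      (((β'.repr y i : ℤ) : D.K) * algebraMap (𝓞 D.K) D.K (β' i)) =
      ((β'.repr y i * ∏ x ∈ Finset.univ.erase i, d x : ℤ) : D.K) *
        ((d i : D.K) * algebraMap (𝓞 D.K) D.K (β' i)) := by
    push_cast; ring
  rw [this]
  exact D.O.mul_mem (intCast_mem _ _) (hd' i)

/-- A power of every unit of the maximal order lies in `O`, together with its inverse. -/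
theorem exists_pow_mem (η : (𝓞 D.K)ˣ) : ∃ k : ℕ, 0 < k ∧ ((η : 𝓞 D.K) : D.K) ^ k ∈ D.O ∧
    (((η : 𝓞 D.K) : D.K) ^ k)⁻¹ ∈ D.O := by
  obtain ⟨m, hm, hmO⟩ := D.exists_conductor
  let J : Ideal (𝓞 D.K) := Ideal.span {(m : 𝓞 D.K)}
  have hJ : J ≠ ⊥ := by
    rw [Ne, Ideal.span_singleton_eq_bot]
    exact_mod_cast hm
  have hfin : Finite (𝓞 D.K ⧸ J) := Ideal.finiteQuotientOfFreeOfNeBot J hJ
  have hfin' : Finite (𝓞 D.K ⧸ J)ˣ := inferInstance
  let φ : (𝓞 D.K)ˣ →* (𝓞 D.K ⧸ J)ˣ := Units.map (Ideal.Quotient.mk J).toMonoidHom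
  have key : ∀ ζ : (𝓞 D.K)ˣ, φ ζ = 1 → ((ζ : 𝓞 D.K) : D.K) ∈ D.O := by
    intro ζ hζ
    have h1 : Ideal.Quotient.mk J (ζ : 𝓞 D.K) = Ideal.Quotient.mk J 1 := by
      have := congrArg (fun z : (𝓞 D.K ⧸ J)ˣ => (z : 𝓞 D.K ⧸ J)) hζ
      simpa [φ] using this
    rw [Ideal.Quotient.eq, Ideal.mem_span_singleton] at h1
    obtain ⟨y, hy⟩ := h1
    have h2 : ((ζ : 𝓞 D.K) : D.K) = (m : D.K) * (y : D.K) + 1 := by
      have := congrArg (fun z : 𝓞 D.K => (z : D.K)) hy
      simp only [map_sub, map_one, map_mul, map_intCast] at this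
      rw [← this]; ring
    rw [h2]
    exact D.O.add_mem (hmO y) D.O.one_mem
  refine ⟨orderOf (φ η), orderOf_pos _, ?_, ?_⟩
  · have := key (η ^ orderOf (φ η)) (by rw [map_pow, pow_orderOf_eq_one])
    simpa using this
  · have := key ((η ^ orderOf (φ η))⁻¹) (by rw [map_inv, map_pow, pow_orderOf_eq_one, inv_one])
    have h3 : ((((η ^ orderOf (φ η))⁻¹ : (𝓞 D.K)ˣ) : 𝓞 D.K) : D.K) =
        (((η : 𝓞 D.K) : D.K) ^ orderOf (φ η))⁻¹ := by
      apply eq_inv_of_mul_eq_one_left
      rw [← map_pow, ← Units.val_pow_eq_pow_val, ← map_mul, ← Units.val_mul, inv_mul_cancel]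
      simp
    rwa [h3] at this

/-- the infinite places are the absolute values of the `σ_j` -/
noncomputable def place (j : Fin n) : InfinitePlace D.K :=
  InfinitePlace.mk (Complex.ofRealHom.comp (D.σ j))

theorem place_apply (j : Fin n) (x : D.K) : D.place j x = |D.σ j x| := by
  simp [place, InfinitePlace.apply]

theorem isReal_comp (j : Fin n) : ComplexEmbedding.IsReal (Complex.ofRealHom.comp (D.σ j)) := by
  rw [ComplexEmbedding.isReal_iff]
  ext x
  simp [ComplexEmbedding.conjugate_coe_eq]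

theorem place_bijective : Function.Bijective D.place := by
  constructor
  · intro i j hij
    rw [place, place, InfinitePlace.mk_eq_iff] at hij
    have h1 : Complex.ofRealHom.comp (D.σ i) = Complex.ofRealHom.comp (D.σ j) := by
      rcases hij with h | h
      · exact h
      · rwa [ComplexEmbedding.isReal_iff.1 (D.isReal_comp i)] at h
    apply D.σ.injective
    ext x
    have := RingHom.congr_fun h1 x
    simpa using this
  · intro w
    obtain ⟨j, hj⟩ := D.exists_complex_eq w.embedding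
    exact ⟨j, by rw [place, ← hj, InfinitePlace.mk_embedding]⟩

theorem mult_place (j : Fin n) : (D.place j).mult = 1 := by
  have : (D.place j).IsReal := ⟨_, D.isReal_comp j, rfl⟩
  simp [InfinitePlace.mult, this]

end Datum

theorem ext_of_sum_zero {f : Fin n → ℝ} (hf : ∑ j, f j = 0) :
    ext (fun i : Fin (n - 1) => f ⟨i, by omega⟩) = f := by
  cases n with
  | zero => funext j; exact j.elim0
  | succ m =>
    funext j
    by_cases h : (j : ℕ) < m + 1 - 1
    · rw [ext_apply_lt h]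
    · have hj : j = Fin.last m := Fin.ext (by simp only [Fin.val_last]; omega)
      rw [Fin.sum_univ_castSucc] at hf
      simp only [ext, h, dif_neg, not_false_eq_true]
      rw [hj, ← sub_eq_zero, neg_sub_left, neg_eq_zero, add_comm]
      exact hf

namespace Datum

variable (D : Datum n)

/-- the logarithm vector of a unit -/
noncomputable def logv (η : (𝓞 D.K)ˣ) (i : Fin (n - 1)) : ℝ :=
  Real.log |D.σ ⟨i, by omega⟩ (η : 𝓞 D.K)|

theorem ext_logv (η : (𝓞 D.K)ˣ) (j : Fin n) :
    ext (D.logv η) j = Real.log |D.σ j (η : 𝓞 D.K)| := by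
  have hsum : ∑ j, Real.log |D.σ j (η : 𝓞 D.K)| = 0 := by
    have h1 := NumberField.Units.sum_mult_mul_log η
    rw [← (Equiv.ofBijective _ D.place_bijective).sum_comp] at h1
    rw [← h1]
    refine Finset.sum_congr rfl fun j _ => ?_
    simp [D.mult_place, D.place_apply]
  exact congrFun (ext_of_sum_zero hsum) j

end Datum

end Vale.Agent.P007
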